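import Vale.Agent.P032.Words5.Marks

/-!
# Pentagon words: certificates

Letters `0..4` are the five diagonals `E_j` of a five coloured centre, in the order in which the lines
order them, `5 = f` is the missing colour.  Legal hexagons: neighbours are `E_a, E_(a±2)` or `E_a, f`;
opposite letters `E_a, E_b` have `a - b = 0, ±1` modulo 5.  There are 820 legal hexagons.

A certificate is a table `T` of components, matrices `A` of the marks and matrices `R` of the chains of
marks; everything is checked by evaluation.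
-/

namespace Vale.Agent.P032.W5

open Vale.Agent.P032.Words

open Set Filter Topology

/-- legal neighbours -/
def adjN (a b : ℕ) : Bool := Nat.testBit 33932910124 (6 * a + b)

/-- legal opposite letters -/
def antN (a b : ℕ) : Bool := Nat.testBit 68617955827 (6 * a + b)

/-- hexagons with letters `E_0..E_4, f` -/
abbrev Hx5 := Fin 6 → Fin 6

/-- legal hexagons -/
def Leg5 (h : Hx5) : Prop :=
  (∀ k, adjN (h k).val (h (k + 1)).val = true) ∧ ∀ k, antN (h k).val (h (k + 3)).val = true

/-- six letters -/
def L6 : List ℕ := [0, 1, 2, 3, 4, 5]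

theorem mem_L6 (a : Fin 6) : a.val ∈ L6 := by
  revert a; decide

/-- all legal hexagons -/
def hexAll (p : ℕ → ℕ → ℕ → ℕ → ℕ → ℕ → Bool) : Bool :=
  L6.all fun a0 => L6.all fun a1 => !adjN a0 a1 || L6.all fun a2 => !adjN a1 a2 || L6.all fun a3 =>
    !adjN a2 a3 || !antN a0 a3 || L6.all fun a4 => !adjN a3 a4 || !antN a1 a4 || L6.all fun a5 =>
      !adjN a4 a5 || !adjN a5 a0 || !antN a2 a5 || p a0 a1 a2 a3 a4 a5

theorem hexAll_spec {p : ℕ → ℕ → ℕ → ℕ → ℕ → ℕ → Bool} (hp : hexAll p = true) {h : Hx5}
    (hh : Leg5 h) : p (h 0).val (h 1).val (h 2).val (h 3).val (h 4).val (h 5).val = true := by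
  have e0 : adjN (h 0).val (h 1).val = true := hh.1 0
  have e1 : adjN (h 1).val (h 2).val = true := hh.1 1
  have e2 : adjN (h 2).val (h 3).val = true := hh.1 2
  have e3 : adjN (h 3).val (h 4).val = true := hh.1 3
  have e4 : adjN (h 4).val (h 5).val = true := hh.1 4
  have e5 : adjN (h 5).val (h 0).val = true := hh.1 5
  have o0 : antN (h 0).val (h 3).val = true := hh.2 0
  have o1 : antN (h 1).val (h 4).val = true := hh.2 1
  have o2 : antN (h 2).val (h 5).val = true := hh.2 2
  unfold hexAll at hp
  have h0 := List.all_eq_true.mp hp _ (mem_L6 (h 0))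
  have h1 := List.all_eq_true.mp h0 _ (mem_L6 (h 1))
  simp only [e0, Bool.not_true, Bool.false_or] at h1
  have h2 := List.all_eq_true.mp h1 _ (mem_L6 (h 2))
  simp only [e1, Bool.not_true, Bool.false_or] at h2
  have h3 := List.all_eq_true.mp h2 _ (mem_L6 (h 3))
  simp only [e2, o0, Bool.not_true, Bool.false_or] at h3
  have h4 := List.all_eq_true.mp h3 _ (mem_L6 (h 4))
  simp only [e3, o1, Bool.not_true, Bool.false_or] at h4
  have h5 := List.all_eq_true.mp h4 _ (mem_L6 (h 5))
  simpa only [e4, e5, o2, Bool.not_true, Bool.false_or] using h5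

/-- number of a legal pair of neighbours -/
def prN (a b : ℕ) : ℕ :=
  (29302399110820399770333244249915314182394144306003968 >>> (5 * (6 * a + b))) % 32

/-- table lookup, entries of 8 bits -/
def cD (T a0 a1 a2 a3 a4 a5 : ℕ) : ℕ :=
  (T >>> (8 * (prN a0 a1 + 20 * (prN a2 a3 + 20 * prN a4 a5)))) % 256

/-- the component of a hexagon -/
def cmp5 (T : ℕ) (h : Hx5) : ℕ :=
  cD T (h 0).val (h 1).val (h 2).val (h 3).val (h 4).val (h 5).val

/-- row `i` of a matrix of rows of length `N` -/
def rowN (N M i : ℕ) : ℕ := (M >>> (N * i)) % 2 ^ N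

/-- the test of one move -/
def mvN (N m A : ℕ) (fr : ℕ → ℕ → Bool) (mk : ℕ → ℕ → ℕ → Bool) (c a b c' : ℕ) : Bool :=
  (!fr a b || c' == c) &&
    (List.range m).all fun t => !mk a b t || (rowN N A (N * t + c)).testBit c'

/-- the test of all legal moves -/
def chkMove (N m T A : ℕ) (fr : ℕ → ℕ → Bool) (mk : ℕ → ℕ → ℕ → Bool) : Bool :=
  hexAll fun a0 a1 a2 a3 a4 a5 => decide (cD T a0 a1 a2 a3 a4 a5 < N) && L6.all fun b =>
    (!adjN a5 b || !adjN b a1 || !antN b a3 ||
      mvN N m A fr mk (cD T a0 a1 a2 a3 a4 a5) a0 b (cD T b a1 a2 a3 a4 a5)) &&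
    (!adjN a0 b || !adjN b a2 || !antN b a4 ||
      mvN N m A fr mk (cD T a0 a1 a2 a3 a4 a5) a1 b (cD T a0 b a2 a3 a4 a5)) &&
    (!adjN a1 b || !adjN b a3 || !antN b a5 ||
      mvN N m A fr mk (cD T a0 a1 a2 a3 a4 a5) a2 b (cD T a0 a1 b a3 a4 a5)) &&
    (!adjN a2 b || !adjN b a4 || !antN b a0 ||
      mvN N m A fr mk (cD T a0 a1 a2 a3 a4 a5) a3 b (cD T a0 a1 a2 b a4 a5)) &&
    (!adjN a3 b || !adjN b a5 || !antN b a1 ||
      mvN N m A fr mk (cD T a0 a1 a2 a3 a4 a5) a4 b (cD T a0 a1 a2 a3 b a5)) &&
    (!adjN a4 b || !adjN b a0 || !antN b a2 ||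
      mvN N m A fr mk (cD T a0 a1 a2 a3 a4 a5) a5 b (cD T a0 a1 a2 a3 a4 b))

/-- the test of the chains -/
def chkR (N m A R : ℕ) : Bool :=
  ((List.range N).all fun a => (rowN N R a).testBit a) &&
  (List.range (2 ^ m)).all fun n => (List.range N).all fun a => (List.range N).all fun b =>
    !(rowN N R (N * n + a)).testBit b || (List.range m).all fun t => n.testBit t ||
      (rowN N A (N * t + b) &&& rowN N R (N * (n ||| 2 ^ t) + a)) == rowN N A (N * t + b)

/-- the test that no chain closes up -/
def chkEnd (N m T R : ℕ) : Bool :=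
  hexAll fun a0 a1 a2 a3 a4 a5 => (List.range (2 ^ m)).all fun n =>
    !(rowN N R (N * n + cD T a0 a1 a2 a3 a4 a5)).testBit (cD T a1 a2 a3 a4 a5 a0)

section
variable {N m T A R : ℕ} {fr : ℕ → ℕ → Bool} {mk : ℕ → ℕ → ℕ → Bool}

theorem mv_of_chk (hc : chkMove N m T A fr mk = true) (h : Hx5) (k l : Fin 6) (h1 : Leg5 h)
    (h2 : Leg5 (Function.update h k l)) :
    mvN N m A fr mk (cmp5 T h) (h k).val l.val (cmp5 T (Function.update h k l)) = true := by
  have key := hexAll_spec hc h1
  rw [Bool.and_eq_true] at key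
  have key2 := List.all_eq_true.mp key.2 _ (mem_L6 l)
  simp only [Bool.and_eq_true] at key2
  obtain ⟨⟨⟨⟨⟨k0, k1⟩, k2⟩, k3⟩, k4⟩, k5⟩ := key2
  have u : ∀ j, Function.update h k l j = if j = k then l else h j := fun j => by
    by_cases hj : j = k
    · subst hj; simp
    · simp [hj]
  have ha := h2.1
  have hb := h2.2
  unfold cmp5
  fin_cases k
  · have x1 : adjN (h 5).val l.val = true := by simpa [u] using ha 5
    have x2 : adjN l.val (h 1).val = true := by simpa [u] using ha 0
    have x3 : antN l.val (h 3).val = true := by simpa [u] using hb 0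
    simp only [x1, x2, x3, Bool.not_true, Bool.false_or] at k0
    simpa [u] using k0
  · have x1 : adjN (h 0).val l.val = true := by simpa [u] using ha 0
    have x2 : adjN l.val (h 2).val = true := by simpa [u] using ha 1
    have x3 : antN l.val (h 4).val = true := by simpa [u] using hb 1
    simp only [x1, x2, x3, Bool.not_true, Bool.false_or] at k1
    simpa [u] using k1
  · have x1 : adjN (h 1).val l.val = true := by simpa [u] using ha 1
    have x2 : adjN l.val (h 3).val = true := by simpa [u] using ha 2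
    have x3 : antN l.val (h 5).val = true := by simpa [u] using hb 2
    simp only [x1, x2, x3, Bool.not_true, Bool.false_or] at k2
    simpa [u] using k2
  · have x1 : adjN (h 2).val l.val = true := by simpa [u] using ha 2
    have x2 : adjN l.val (h 4).val = true := by simpa [u] using ha 3
    have x3 : antN l.val (h 0).val = true := by simpa [u] using hb 3
    simp only [x1, x2, x3, Bool.not_true, Bool.false_or] at k3
    simpa [u] using k3
  · have x1 : adjN (h 3).val l.val = true := by simpa [u] using ha 3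
    have x2 : adjN l.val (h 5).val = true := by simpa [u] using ha 4
    have x3 : antN l.val (h 1).val = true := by simpa [u] using hb 4
    simp only [x1, x2, x3, Bool.not_true, Bool.false_or] at k4
    simpa [u] using k4
  · have x1 : adjN (h 4).val l.val = true := by simpa [u] using ha 4
    have x2 : adjN l.val (h 0).val = true := by simpa [u] using ha 5
    have x3 : antN l.val (h 2).val = true := by simpa [u] using hb 5
    simp only [x1, x2, x3, Bool.not_true, Bool.false_or] at k5
    simpa [u] using k5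

theorem lt_of_chk (hc : chkMove N m T A fr mk = true) {h : Hx5} (h1 : Leg5 h) : cmp5 T h < N := by
  have key := hexAll_spec hc h1
  rw [Bool.and_eq_true] at key
  exact of_decide_eq_true key.1

theorem free_of_chk (hc : chkMove N m T A fr mk = true) (h : Hx5) (k l : Fin 6) (h1 : Leg5 h)
    (h2 : Leg5 (Function.update h k l)) (h3 : fr (h k).val l.val = true) :
    cmp5 T (Function.update h k l) = cmp5 T h := by
  have := mv_of_chk hc h k l h1 h2
  unfold mvN at this
  rw [Bool.and_eq_true, h3] at this
  simpa using this.1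

theorem range_all {n : ℕ} {p : ℕ → Bool} (h : (List.range n).all p = true) {i : ℕ} (hi : i < n) :
    p i = true := List.all_eq_true.mp h i (List.mem_range.mpr hi)

theorem step_of_chk5 (hc : chkMove N m T A fr mk = true) {t : Fin m} {c c' : ℕ}
    (hs : Step Leg5 (cmp5 T) (fun a b (t : Fin m) => mk a.val b.val t.val = true) t c c') :
    (rowN N A (N * t.val + c)).testBit c' = true := by
  obtain ⟨h, k, b, h1, h2, h3, rfl, rfl⟩ := hs
  have := mv_of_chk hc h k b h1 h2
  unfold mvN at this
  rw [Bool.and_eq_true] at this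
  have h4 := range_all this.2 t.isLt
  simpa [h3] using h4

theorem lt_of_row {N M i b : ℕ} (h : (rowN N M i).testBit b = true) : b < N := by
  unfold rowN at h
  rw [Nat.testBit_mod_two_pow] at h
  simp only [Bool.and_eq_true, decide_eq_true_eq] at h
  exact h.1

theorem reach_of_chk (hc : chkMove N m T A fr mk = true) (hR : chkR N m A R = true)
    {S : Finset (Fin m)} {a c : ℕ} (ha : a < N)
    (hs : Reach (Step Leg5 (cmp5 T) (fun a b (t : Fin m) => mk a.val b.val t.val = true)) S a c) :
    ∃ n, n < 2 ^ m ∧ (∀ t : Fin m, n.testBit t.val = true ↔ t ∈ S) ∧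
      (rowN N R (N * n + a)).testBit c = true := by
  unfold chkR at hR
  rw [Bool.and_eq_true] at hR
  obtain ⟨r0, r1⟩ := hR
  induction hs with
  | refl c => exact ⟨0, Nat.two_pow_pos m, by simp, by simpa using range_all r0 ha⟩
  | @tail S a b c t hs ht hst ih =>
    obtain ⟨n, hn, hS, hb⟩ := ih ha
    have hbN := lt_of_row hb
    have h1 := range_all (range_all (range_all r1 hn) ha) hbN
    rw [hb, Bool.not_true, Bool.false_or] at h1
    have h2 := range_all h1 t.isLt
    have h3 : n.testBit t.val = false := by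
      rw [Bool.eq_false_iff]
      intro h; exact ht ((hS t).1 h)
    rw [h3, Bool.false_or, beq_iff_eq] at h2
    have h4 := step_of_chk5 hc hst
    refine ⟨n ||| 2 ^ t.val, Nat.or_lt_two_pow hn (Nat.pow_lt_pow_right (by norm_num) t.isLt), ?_, ?_⟩
    · intro s
      rw [Nat.testBit_or, Nat.testBit_two_pow, Bool.or_eq_true, hS s, Finset.mem_insert,
        decide_eq_true_eq]
      constructor
      · rintro (h | h)
        · exact Or.inr h
        · exact Or.inl (Fin.ext h.symm)
      · rintro (h | h)
        · exact Or.inr (by rw [h])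
        · exact Or.inl h
    · rw [← h2, Nat.testBit_and, Bool.and_eq_true] at h4
      exact h4.2

/-- **No chain of marks closes up.** -/
theorem noReach (hc : chkMove N m T A fr mk = true) (hR : chkR N m A R = true)
    (hE : chkEnd N m T R = true) {h : Hx5} (h1 : Leg5 h) (S : Finset (Fin m)) :
    ¬ Reach (Step Leg5 (cmp5 T) (fun a b (t : Fin m) => mk a.val b.val t.val = true)) S
      (cmp5 T h) (cmp5 T (rot h)) := by
  intro hs
  obtain ⟨n, hn, -, h2⟩ := reach_of_chk hc hR (lt_of_chk hc h1) hs
  have h3 := range_all (hexAll_spec hE h1) hn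
  have h4 : cmp5 T (rot h) = cD T (h 1).val (h 2).val (h 3).val (h 4).val (h 5).val (h 0).val := rfl
  rw [h4] at h2
  rw [Bool.not_eq_true'] at h3
  unfold cmp5 at h2
  rw [h3] at h2
  exact Bool.noConfusion h2

end

end Vale.Agent.P032.W5
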