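import Vale.Agent.P032.Words5.Cert
import Vale.Agent.P032.Words5.Gen

/-!
# Pentagon words with ties: certificates

`R` is a table of rows: row `N * n + c` is the set of components from which `c` can be reached by a
chain with the marks `n`.  Single changes and the forward frozen pairs of legal hexagons are checked.
-/

namespace Vale.Agent.P032.W5

open Vale.Agent.P032.Words

open Set Filter Topology

/-- no swap at 60 degrees -/
def sw1 (a a' b b' : ℕ) : Bool := adjN a b' || adjN a' b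

/-- no swap at 180 degrees -/
def sw3 (a a' b b' : ℕ) : Bool := antN a b' || antN a' b

/-- letter with offset -/
def lt5 (x o : ℕ) : ℕ := bif o == 5 then 5 else (x + o) % 5

/-- the two letters of a palette -/
def pal5 (x p q a b : ℕ) : Bool := (a == lt5 x p && b == lt5 x q) || (a == lt5 x q && b == lt5 x p)

/-- the four frozen forms -/
def fzA (x a0 a1 a2 a3 a4 a5 b0 b1 b2 b3 b4 b5 : ℕ) : Bool :=
  pal5 x 0 5 a0 b0 && pal5 x 0 5 a2 b2 &&
  ((pal5 x 2 5 a1 b1 && pal5 x 2 5 a3 b3 && pal5 x 0 5 a4 b4 && pal5 x 2 5 a5 b5) ||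
   (pal5 x 2 5 a1 b1 && pal5 x 2 5 a3 b3 && pal5 x 0 5 a4 b4 && pal5 x 3 5 a5 b5) ||
   (pal5 x 3 5 a1 b1 && pal5 x 3 5 a3 b3 && pal5 x 0 5 a4 b4 && pal5 x 2 5 a5 b5) ||
   (pal5 x 2 1 a1 b1 && pal5 x 5 2 a3 b3 && pal5 x 1 0 a4 b4 && pal5 x 5 2 a5 b5))

/-- frozen pairs -/
def frzN (a0 a1 a2 a3 a4 a5 b0 b1 b2 b3 b4 b5 : ℕ) : Bool :=
  [0, 1, 2, 3, 4].any fun x =>
    fzA x a0 a1 a2 a3 a4 a5 b0 b1 b2 b3 b4 b5 || fzA x a1 a2 a3 a4 a5 a0 b1 b2 b3 b4 b5 b0 ||
    fzA x a2 a3 a4 a5 a0 a1 b2 b3 b4 b5 b0 b1 || fzA x a3 a4 a5 a0 a1 a2 b3 b4 b5 b0 b1 b2 ||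
    fzA x a4 a5 a0 a1 a2 a3 b4 b5 b0 b1 b2 b3 || fzA x a5 a0 a1 a2 a3 a4 b5 b0 b1 b2 b3 b4

/-- equal or free or typed -/
def valN (m : ℕ) (fr : ℕ → ℕ → Bool) (mk : ℕ → ℕ → ℕ → Bool) (a b : ℕ) : Bool :=
  fr a b || (List.range m).any fun t => mk a b t

/-- typed change -/
def occN (fr : ℕ → ℕ → Bool) (mk : ℕ → ℕ → ℕ → Bool) (t a b : ℕ) : Bool := !fr a b && mk a b t

/-- the number of changes of type `t` -/
def cntN (fr : ℕ → ℕ → Bool) (mk : ℕ → ℕ → ℕ → Bool)
    (a0 a1 a2 a3 a4 a5 b0 b1 b2 b3 b4 b5 t : ℕ) : ℕ :=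
  (occN fr mk t a0 b0).toNat + (occN fr mk t a1 b1).toNat + (occN fr mk t a2 b2).toNat +
    (occN fr mk t a3 b3).toNat + (occN fr mk t a4 b4).toNat + (occN fr mk t a5 b5).toNat

/-- the set of types as a mask -/
def maskN (c : ℕ → ℕ) : ℕ → ℕ
  | 0 => 0
  | m + 1 => maskN c m ||| (if c m = 0 then 0 else 2 ^ m)

/-- the mask of one change -/
def onN (m : ℕ) (fr : ℕ → ℕ → Bool) (mk : ℕ → ℕ → ℕ → Bool) (a b : ℕ) : ℕ :=
  maskN (fun t => (occN fr mk t a b).toNat) m

/-- a move with the marks `n` -/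
def leafN (N m R n c c' : ℕ) : Bool :=
  (n == 0 && c == c') || (List.range (2 ^ m)).all fun n0 => !(n0 &&& n == 0) ||
    rowN N R (N * n0 + c) &&& rowN N R (N * (n0 ||| n) + c') == rowN N R (N * n0 + c)

/-- a legal single change of `a` into `b` between `p` and `q`, opposite `o` -/
def fwdN (p b q o a : ℕ) : Bool := !(a == b) && adjN p b && adjN b q && antN b o

/-- the last test -/
def finN (N m T R : ℕ) (fr : ℕ → ℕ → Bool) (mk : ℕ → ℕ → ℕ → Bool)
    (a0 a1 a2 a3 a4 a5 b0 b1 b2 b3 b4 b5 : ℕ) : Bool :=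
  leafN N m R (maskN (cntN fr mk a0 a1 a2 a3 a4 a5 b0 b1 b2 b3 b4 b5) m) (cD T a0 a1 a2 a3 a4 a5)
    (cD T b0 b1 b2 b3 b4 b5) ||
  ((List.range m).any fun t => Nat.ble 2 (cntN fr mk a0 a1 a2 a3 a4 a5 b0 b1 b2 b3 b4 b5 t)) ||
  frzN a0 a1 a2 a3 a4 a5 b0 b1 b2 b3 b4 b5

/-- all forward frozen pairs -/
def chkP (N m T R : ℕ) (fr : ℕ → ℕ → Bool) (mk : ℕ → ℕ → ℕ → Bool) : Bool :=
  hexAll fun a0 a1 a2 a3 a4 a5 => Nat.blt (cD T a0 a1 a2 a3 a4 a5) N &&
    L6.all fun b0 => !valN m fr mk a0 b0 || fwdN a5 b0 a1 a3 a0 ||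
    L6.all fun b1 => !valN m fr mk a1 b1 || fwdN a0 b1 a2 a4 a1 || !adjN b0 b1 || !sw1 a0 b0 a1 b1 ||
    L6.all fun b2 => !valN m fr mk a2 b2 || fwdN a1 b2 a3 a5 a2 || !adjN b1 b2 || !sw1 a1 b1 a2 b2 ||
    L6.all fun b3 => !valN m fr mk a3 b3 || fwdN a2 b3 a4 a0 a3 || !adjN b2 b3 ||
      !sw1 a2 b2 a3 b3 || !antN b0 b3 || !sw3 a0 b0 a3 b3 ||
    L6.all fun b4 => !valN m fr mk a4 b4 || fwdN a3 b4 a5 a1 a4 || !adjN b3 b4 ||
      !sw1 a3 b3 a4 b4 || !antN b1 b4 || !sw3 a1 b1 a4 b4 ||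
    L6.all fun b5 => !valN m fr mk a5 b5 || fwdN a4 b5 a0 a2 a5 || !adjN b4 b5 ||
      !sw1 a4 b4 a5 b5 || !antN b2 b5 || !sw3 a2 b2 a5 b5 || !adjN b5 b0 || !sw1 a5 b5 a0 b0 ||
      finN N m T R fr mk a0 a1 a2 a3 a4 a5 b0 b1 b2 b3 b4 b5

/-- all single changes -/
def chkS (N m T R : ℕ) (fr : ℕ → ℕ → Bool) (mk : ℕ → ℕ → ℕ → Bool) : Bool :=
  hexAll fun a0 a1 a2 a3 a4 a5 =>
    (L6.all fun b => !fwdN a5 b a1 a3 a0 || !valN m fr mk a0 b ||
      leafN N m R (onN m fr mk a0 b) (cD T a0 a1 a2 a3 a4 a5) (cD T b a1 a2 a3 a4 a5)) &&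
    (L6.all fun b => !fwdN a0 b a2 a4 a1 || !valN m fr mk a1 b ||
      leafN N m R (onN m fr mk a1 b) (cD T a0 a1 a2 a3 a4 a5) (cD T a0 b a2 a3 a4 a5)) &&
    (L6.all fun b => !fwdN a1 b a3 a5 a2 || !valN m fr mk a2 b ||
      leafN N m R (onN m fr mk a2 b) (cD T a0 a1 a2 a3 a4 a5) (cD T a0 a1 b a3 a4 a5)) &&
    (L6.all fun b => !fwdN a2 b a4 a0 a3 || !valN m fr mk a3 b ||
      leafN N m R (onN m fr mk a3 b) (cD T a0 a1 a2 a3 a4 a5) (cD T a0 a1 a2 b a4 a5)) &&
    (L6.all fun b => !fwdN a3 b a5 a1 a4 || !valN m fr mk a4 b ||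
      leafN N m R (onN m fr mk a4 b) (cD T a0 a1 a2 a3 a4 a5) (cD T a0 a1 a2 a3 b a5)) &&
    (L6.all fun b => !fwdN a4 b a0 a2 a5 || !valN m fr mk a5 b ||
      leafN N m R (onN m fr mk a5 b) (cD T a0 a1 a2 a3 a4 a5) (cD T a0 a1 a2 a3 a4 b))

/-- the diagonal of the table -/
def chkD (N R : ℕ) : Bool := (List.range N).all fun a => rowN N R a == 2 ^ a

/-- no component reaches its rotation -/
def chkF (N m T R : ℕ) : Bool :=
  hexAll fun a0 a1 a2 a3 a4 a5 => (List.range (2 ^ m)).all fun n =>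
    !(rowN N R (N * n + cD T a1 a2 a3 a4 a5 a0)).testBit (cD T a0 a1 a2 a3 a4 a5)

section
variable {N m T A R : ℕ} {fr : ℕ → ℕ → Bool} {mk : ℕ → ℕ → ℕ → Bool}

theorem antN_comm : ∀ a b : Fin 6, antN a.val b.val = antN b.val a.val := by decide

/-- a forward frozen pair -/
theorem chkP_spec (hc : chkP N m T R fr mk = true) {h h' : Hx5} (h1 : Leg5 h) (h2 : Leg5 h')
    (hv : ∀ k, valN m fr mk (h k).val (h' k).val = true)
    (hf : ∀ k : Fin 6, fwdN (h (k + 5)).val (h' k).val (h (k + 1)).val (h (k + 3)).val (h k).val = false)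
    (hs1 : ∀ k, sw1 (h k).val (h' k).val (h (k + 1)).val (h' (k + 1)).val = true)
    (hs3 : ∀ k, sw3 (h k).val (h' k).val (h (k + 3)).val (h' (k + 3)).val = true) :
    finN N m T R fr mk (h 0).val (h 1).val (h 2).val (h 3).val (h 4).val (h 5).val
      (h' 0).val (h' 1).val (h' 2).val (h' 3).val (h' 4).val (h' 5).val = true := by
  have e0 : adjN (h' 0).val (h' 1).val = true := h2.1 0
  have e1 : adjN (h' 1).val (h' 2).val = true := h2.1 1
  have e2 : adjN (h' 2).val (h' 3).val = true := h2.1 2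
  have e3 : adjN (h' 3).val (h' 4).val = true := h2.1 3
  have e4 : adjN (h' 4).val (h' 5).val = true := h2.1 4
  have e5 : adjN (h' 5).val (h' 0).val = true := h2.1 5
  have o0 : antN (h' 0).val (h' 3).val = true := h2.2 0
  have o1 : antN (h' 1).val (h' 4).val = true := h2.2 1
  have o2 : antN (h' 2).val (h' 5).val = true := h2.2 2
  have s0 : sw1 (h 0).val (h' 0).val (h 1).val (h' 1).val = true := hs1 0
  have s1 : sw1 (h 1).val (h' 1).val (h 2).val (h' 2).val = true := hs1 1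
  have s2 : sw1 (h 2).val (h' 2).val (h 3).val (h' 3).val = true := hs1 2
  have s3 : sw1 (h 3).val (h' 3).val (h 4).val (h' 4).val = true := hs1 3
  have s4 : sw1 (h 4).val (h' 4).val (h 5).val (h' 5).val = true := hs1 4
  have s5 : sw1 (h 5).val (h' 5).val (h 0).val (h' 0).val = true := hs1 5
  have r0 : sw3 (h 0).val (h' 0).val (h 3).val (h' 3).val = true := hs3 0
  have r1 : sw3 (h 1).val (h' 1).val (h 4).val (h' 4).val = true := hs3 1
  have r2 : sw3 (h 2).val (h' 2).val (h 5).val (h' 5).val = true := hs3 2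
  have f0 : fwdN (h 5).val (h' 0).val (h 1).val (h 3).val (h 0).val = false := hf 0
  have f1 : fwdN (h 0).val (h' 1).val (h 2).val (h 4).val (h 1).val = false := hf 1
  have f2 : fwdN (h 1).val (h' 2).val (h 3).val (h 5).val (h 2).val = false := hf 2
  have f3 : fwdN (h 2).val (h' 3).val (h 4).val (h 0).val (h 3).val = false := hf 3
  have f4 : fwdN (h 3).val (h' 4).val (h 5).val (h 1).val (h 4).val = false := hf 4
  have f5 : fwdN (h 4).val (h' 5).val (h 0).val (h 2).val (h 5).val = false := hf 5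
  have key := hexAll_spec hc h1
  rw [Bool.and_eq_true] at key
  have k0 := List.all_eq_true.mp key.2 _ (mem_L6 (h' 0))
  simp only [hv, f0, Bool.not_true, Bool.false_or] at k0
  have k1 := List.all_eq_true.mp k0 _ (mem_L6 (h' 1))
  simp only [hv, f1, e0, s0, Bool.not_true, Bool.false_or] at k1
  have k2 := List.all_eq_true.mp k1 _ (mem_L6 (h' 2))
  simp only [hv, f2, e1, s1, Bool.not_true, Bool.false_or] at k2
  have k3 := List.all_eq_true.mp k2 _ (mem_L6 (h' 3))
  simp only [hv, f3, e2, s2, o0, r0, Bool.not_true, Bool.false_or] at k3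
  have k4 := List.all_eq_true.mp k3 _ (mem_L6 (h' 4))
  simp only [hv, f4, e3, s3, o1, r1, Bool.not_true, Bool.false_or] at k4
  have k5 := List.all_eq_true.mp k4 _ (mem_L6 (h' 5))
  simpa only [hv, f5, e4, s4, e5, s5, o2, r2, Bool.not_true, Bool.false_or] using k5

theorem lt_of_chkP (hc : chkP N m T R fr mk = true) {h : Hx5} (h1 : Leg5 h) : cmp5 T h < N := by
  have key := hexAll_spec hc h1
  rw [Bool.and_eq_true] at key
  exact Nat.blt_eq.mp key.1

/-- a single change -/
theorem chkS_spec (hc : chkS N m T R fr mk = true) {h : Hx5} (h1 : Leg5 h) (k b : Fin 6)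
    (hf : fwdN (h (k + 5)).val b.val (h (k + 1)).val (h (k + 3)).val (h k).val = true)
    (hv : valN m fr mk (h k).val b.val = true) :
    leafN N m R (onN m fr mk (h k).val b.val) (cmp5 T h) (cmp5 T (Function.update h k b)) = true := by
  have key := hexAll_spec hc h1
  simp only [Bool.and_eq_true] at key
  obtain ⟨⟨⟨⟨⟨k0, k1⟩, k2⟩, k3⟩, k4⟩, k5⟩ := key
  fin_cases k
  · have := List.all_eq_true.mp k0 _ (mem_L6 b)
    change fwdN (h 5).val b.val (h 1).val (h 3).val (h 0).val = true at hf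
    change valN m fr mk (h 0).val b.val = true at hv
    simp only [hf, hv, Bool.not_true, Bool.false_or] at this
    exact this
  · have := List.all_eq_true.mp k1 _ (mem_L6 b)
    change fwdN (h 0).val b.val (h 2).val (h 4).val (h 1).val = true at hf
    change valN m fr mk (h 1).val b.val = true at hv
    simp only [hf, hv, Bool.not_true, Bool.false_or] at this
    exact this
  · have := List.all_eq_true.mp k2 _ (mem_L6 b)
    change fwdN (h 1).val b.val (h 3).val (h 5).val (h 2).val = true at hf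
    change valN m fr mk (h 2).val b.val = true at hv
    simp only [hf, hv, Bool.not_true, Bool.false_or] at this
    exact this
  · have := List.all_eq_true.mp k3 _ (mem_L6 b)
    change fwdN (h 2).val b.val (h 4).val (h 0).val (h 3).val = true at hf
    change valN m fr mk (h 3).val b.val = true at hv
    simp only [hf, hv, Bool.not_true, Bool.false_or] at this
    exact this
  · have := List.all_eq_true.mp k4 _ (mem_L6 b)
    change fwdN (h 3).val b.val (h 5).val (h 1).val (h 4).val = true at hf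
    change valN m fr mk (h 4).val b.val = true at hv
    simp only [hf, hv, Bool.not_true, Bool.false_or] at this
    exact this
  · have := List.all_eq_true.mp k5 _ (mem_L6 b)
    change fwdN (h 4).val b.val (h 0).val (h 2).val (h 5).val = true at hf
    change valN m fr mk (h 5).val b.val = true at hv
    simp only [hf, hv, Bool.not_true, Bool.false_or] at this
    exact this

/-- a legal single change -/
theorem fwd_leg {h : Hx5} (h1 : Leg5 h) (k b : Fin 6)
    (hf : fwdN (h (k + 5)).val b.val (h (k + 1)).val (h (k + 3)).val (h k).val = true) :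
    Leg5 (Function.update h k b) := by
  unfold fwdN at hf
  simp only [Bool.and_eq_true] at hf
  obtain ⟨⟨⟨-, hp⟩, hq⟩, ho⟩ := hf
  have n1 : ∀ k : Fin 6, k + 1 ≠ k := by decide
  have n3 : ∀ k : Fin 6, k + 3 ≠ k := by decide
  have e5 : ∀ k j : Fin 6, j + 1 = k → j = k + 5 := by decide
  have e3 : ∀ k j : Fin 6, j + 3 = k → j = k + 3 := by decide
  constructor
  · intro j
    by_cases hj : j = k
    · subst hj
      rw [Function.update_self, Function.update_of_ne (n1 j)]
      exact hq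
    · rw [Function.update_of_ne hj]
      by_cases hj1 : j + 1 = k
      · rw [hj1, Function.update_self, e5 k j hj1]
        exact hp
      · rw [Function.update_of_ne hj1]
        exact h1.1 j
  · intro j
    by_cases hj : j = k
    · subst hj
      rw [Function.update_self, Function.update_of_ne (n3 j)]
      exact ho
    · rw [Function.update_of_ne hj]
      by_cases hj1 : j + 3 = k
      · rw [hj1, Function.update_self, e3 k j hj1, antN_comm]
        exact ho
      · rw [Function.update_of_ne hj1]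
        exact h1.2 j

/-- the relation of a table -/
def RelN (N m R : ℕ) (S : Finset (Fin m)) (c c' : ℕ) : Prop :=
  ∃ n, n < 2 ^ m ∧ (∀ t : Fin m, n.testBit t.val = true ↔ t ∈ S) ∧ c < N ∧ c' < N ∧
    ∀ n0 < 2 ^ m, n0 &&& n = 0 →
      rowN N R (N * n0 + c) &&& rowN N R (N * (n0 ||| n) + c') = rowN N R (N * n0 + c)

theorem leafN_spec {n c c' : ℕ} (h : leafN N m R n c c' = true) {n0 : ℕ} (hn0 : n0 < 2 ^ m)
    (hd : n0 &&& n = 0) :
    rowN N R (N * n0 + c) &&& rowN N R (N * (n0 ||| n) + c') = rowN N R (N * n0 + c) := by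
  unfold leafN at h
  rw [Bool.or_eq_true] at h
  rcases h with h | h
  · rw [Bool.and_eq_true, beq_iff_eq, beq_iff_eq] at h
    rw [h.1, h.2, Nat.or_zero, Nat.and_self]
  · have := range_all h hn0
    rw [hd] at this
    simpa using this

theorem maskN_testBit (c : ℕ → ℕ) (m t : ℕ) :
    (maskN c m).testBit t = true ↔ t < m ∧ c t ≠ 0 := by
  induction m with
  | zero => simp [maskN]
  | succ m ih =>
    unfold maskN
    rw [Nat.testBit_or, Bool.or_eq_true, ih]
    by_cases h : c m = 0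
    · rw [if_pos h]
      simp only [Nat.zero_testBit, Bool.false_eq_true, or_false]
      constructor
      · rintro ⟨a, b⟩; exact ⟨by omega, b⟩
      · rintro ⟨a, b⟩
        refine ⟨?_, b⟩
        rcases Nat.lt_succ_iff_lt_or_eq.mp a with h1 | h1
        · exact h1
        · rw [h1] at b; exact absurd h b
    · rw [if_neg h, Nat.testBit_two_pow, decide_eq_true_eq]
      constructor
      · rintro (⟨a, b⟩ | a)
        · exact ⟨by omega, b⟩
        · rw [← a]; exact ⟨by omega, h⟩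
      · rintro ⟨a, b⟩
        rcases Nat.lt_succ_iff_lt_or_eq.mp a with h1 | h1
        · exact Or.inl ⟨h1, b⟩
        · exact Or.inr h1.symm

theorem maskN_lt (c : ℕ → ℕ) (m : ℕ) : maskN c m < 2 ^ m := by
  induction m with
  | zero => simp [maskN]
  | succ m ih =>
    unfold maskN
    refine Nat.or_lt_two_pow (ih.trans (Nat.pow_lt_pow_right (by norm_num) (Nat.lt_succ_self m))) ?_
    split_ifs
    · exact Nat.two_pow_pos _
    · exact Nat.pow_lt_pow_right (by norm_num) (Nat.lt_succ_self m)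

theorem RelN.zero (hR : chkD N R = true) {c c' : ℕ} (h : RelN N m R ∅ c c') : c = c' := by
  obtain ⟨n, hn, hS, hc, hc', hb⟩ := h
  have h0 : n = 0 := by
    refine Nat.eq_of_testBit_eq fun i => ?_
    rw [Nat.zero_testBit]
    by_cases hi : i < m
    · have := hS ⟨i, hi⟩
      simpa using this
    · exact Nat.testBit_lt_two_pow (hn.trans_le (Nat.pow_le_pow_right (by norm_num) (not_lt.mp hi)))
  subst h0
  have h1 := range_all hR hc
  have h2 := range_all hR hc'
  rw [beq_iff_eq] at h1 h2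
  have h3 := hb 0 (Nat.two_pow_pos m) rfl
  rw [Nat.or_zero, Nat.mul_zero, Nat.zero_add, Nat.zero_add, h1, h2] at h3
  have h4 : (2 ^ c &&& 2 ^ c').testBit c = true := by
    rw [h3, Nat.testBit_two_pow, decide_eq_true_eq]
  rw [Nat.testBit_and, Bool.and_eq_true, Nat.testBit_two_pow, Nat.testBit_two_pow,
    decide_eq_true_eq, decide_eq_true_eq] at h4
  exact h4.2.symm

theorem RelN.comp {S S' : Finset (Fin m)} {a b c : ℕ}
    (h : RelN N m R S a b) (h' : RelN N m R S' b c) (hd : Disjoint S S') :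
    RelN N m R (S ∪ S') a c := by
  obtain ⟨n, hn, hS, ha, hb, hr⟩ := h
  obtain ⟨n', hn', hS', hb', hc, hr'⟩ := h'
  have h3 : n &&& n' = 0 := by
    refine Nat.eq_of_testBit_eq fun i => ?_
    rw [Nat.zero_testBit, Nat.testBit_and]
    by_cases hi : i < m
    · rw [Bool.and_eq_false_iff]
      by_contra hcon
      push Not at hcon
      have a1 := (hS ⟨i, hi⟩).1 (by simpa using hcon.1)
      have a2 := (hS' ⟨i, hi⟩).1 (by simpa using hcon.2)
      exact Finset.disjoint_left.1 hd a1 a2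
    · have : n.testBit i = false :=
        Nat.testBit_lt_two_pow (hn.trans_le (Nat.pow_le_pow_right (by norm_num) (not_lt.mp hi)))
      rw [this, Bool.false_and]
  refine ⟨n ||| n', Nat.or_lt_two_pow hn hn', ?_, ha, hc, ?_⟩
  · intro t
    rw [Nat.testBit_or, Bool.or_eq_true, hS t, hS' t, Finset.mem_union]
  · intro n0 hn0 hz
    rw [Nat.and_or_distrib_left] at hz
    have z1 : n0 &&& n = 0 := (Nat.or_eq_zero_iff.mp hz).1
    have z2 : n0 &&& n' = 0 := (Nat.or_eq_zero_iff.mp hz).2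
    have h5 := hr n0 hn0 z1
    have h6 := hr' (n0 ||| n) (Nat.or_lt_two_pow hn0 hn) (by
      rw [Nat.and_or_distrib_right, z2, h3, Nat.or_zero])
    rw [← Nat.or_assoc]
    rw [← h5]
    rw [Nat.and_assoc]
    congr 1

theorem noRelN (hP : chkP N m T R fr mk = true) (hD : chkD N R = true) (hE : chkF N m T R = true)
    {h : Hx5} (h1 : Leg5 h) (S : Finset (Fin m)) : ¬ RelN N m R S (cmp5 T h) (cmp5 T (rot h)) := by
  rintro ⟨n, hn, -, -, -, h2⟩
  have h3 := range_all (hexAll_spec hE h1) hn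
  have h4 : cmp5 T (rot h) = cD T (h 1).val (h 2).val (h 3).val (h 4).val (h 5).val (h 0).val := rfl
  have h5 := h2 0 (Nat.two_pow_pos m) (Nat.zero_and n)
  have h6 := range_all hD (lt_of_chkP hP h1)
  rw [beq_iff_eq] at h6
  rw [Nat.mul_zero, Nat.zero_add, Nat.zero_or, h6] at h5
  have h7 : (2 ^ cmp5 T h &&& rowN N R (N * n + cmp5 T (rot h))).testBit (cmp5 T h) = true := by
    rw [h5, Nat.testBit_two_pow, decide_eq_true_eq]
  rw [Nat.testBit_and, Bool.and_eq_true] at h7
  rw [h4] at h7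
  rw [Bool.not_eq_true'] at h3
  have h8 := h7.2
  unfold cmp5 at h8
  rw [h3] at h8
  exact Bool.noConfusion h8

end

end Vale.Agent.P032.W5
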