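import Vale.Agent.P032.Words.Jump

/-!
# Words on a circle with finitely many marks

Between two letters either everything is free (any number of changes, also Cantor sets), or the common
points of the two letter sets are marks of a type `τ`, and every type occurs at most once on the circle.
Then the component of the hexagon at `p` and the component of its rotation are joined by a chain of
marks, every type being used at most once.
-/

namespace Vale.Agent.P032.W5

open Vale.Agent.P032.Words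

open Set Filter Topology

variable {Λ ι : Type} [DecidableEq ι]

/-- A chain of steps which uses exactly the types in `S`, every one once. -/
inductive Reach (step : ι → ℕ → ℕ → Prop) : Finset ι → ℕ → ℕ → Prop
  | refl (c : ℕ) : Reach step ∅ c c
  | tail {S : Finset ι} {a b c : ℕ} {τ : ι} (h : Reach step S a b) (hτ : τ ∉ S) (hs : step τ b c) :
      Reach step (insert τ S) a c

theorem Reach.trans {step : ι → ℕ → ℕ → Prop} {S S' : Finset ι} {a b c : ℕ}
    (h : Reach step S a b) (h' : Reach step S' b c) (hd : Disjoint S S') :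
    Reach step (S ∪ S') a c := by
  induction h' with
  | refl c => simpa using h
  | @tail S' b' c' d τ h2 hτ hs ih =>
    have hd' : Disjoint S S' := Finset.disjoint_of_subset_right (Finset.subset_insert _ _) hd
    have hτS : τ ∉ S := fun hh => Finset.disjoint_left.1 hd hh (Finset.mem_insert_self _ _)
    have := (ih h hd').tail (τ := τ) (by simp [hτ, hτS]) hs
    rwa [← Finset.union_insert] at this

/-- the steps on components -/
def Step (Leg : (Fin 6 → Λ) → Prop) (cmp : (Fin 6 → Λ) → ℕ) (ty : Λ → Λ → ι → Prop)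
    (τ : ι) (c c' : ℕ) : Prop :=
  ∃ h : Fin 6 → Λ, ∃ k : Fin 6, ∃ b : Λ, Leg h ∧ Leg (Function.update h k b) ∧ ty (h k) b τ ∧
    cmp h = c ∧ cmp (Function.update h k b) = c'

/-- `u` is a common point of two letters with a type `τ`. -/
def Occ (X : Λ → Set ℝ) (free : Λ → Λ → Prop) (ty : Λ → Λ → ι → Prop) (τ : ι) (u : ℝ) : Prop :=
  ∃ a b, u ∈ X a ∧ u ∈ X b ∧ ¬ free a b ∧ ty a b τ

/-- The word has marks only. -/
structure Marked (X : Λ → Set ℝ) (free : Λ → Λ → Prop) (ty : Λ → Λ → ι → Prop) : Prop where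
  frefl : ∀ a, free a a
  fsymm : ∀ a b, free a b → free b a
  tsymm : ∀ a b τ, ty a b τ → ty b a τ
  mark : ∀ u a b, u ∈ X a → u ∈ X b → ¬ free a b →
    ∃ τ, ty a b τ ∧ (Mark X a b u ∨ Mark X b a u)
  uniq : ∀ τ u v, Occ X free ty τ u → Occ X free ty τ v → ∃ n : ℤ, v = u + 6 * n

variable [Nonempty Λ] [Finite Λ] [Finite ι] {X : Λ → Set ℝ} {Leg : (Fin 6 → Λ) → Prop}
  {free : Λ → Λ → Prop} {cmp : (Fin 6 → Λ) → ℕ} {ty : Λ → Λ → ι → Prop}

omit [DecidableEq ι] in
/-- integers between consecutive integers -/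
theorem int_aux {n : ℤ} {x y : ℝ} {k l : ℕ} (hk : k < 6) (hl : l < 6) (h : y + l = x + k + 6 * n)
    (h1 : |y - x| < 1) : y = x ∧ k = l := by
  have h2 : y - x = ((k : ℤ) - l + 6 * n : ℤ) := by push_cast; linarith
  have h3 : (k : ℤ) - l + 6 * n = 0 := by
    rw [h2] at h1
    have : |((k : ℤ) - l + 6 * n : ℤ)| < 1 := by exact_mod_cast h1
    rwa [Int.abs_lt_one_iff] at this
  refine ⟨by rw [h3] at h2; push_cast at h2; linarith, by omega⟩

/-- the bad times in an interval -/
def Bad (X : Λ → Set ℝ) (free : Λ → Λ → Prop) (s : Set ℝ) : Set ℝ :=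
  {u | u ∈ s ∧ ∃ k : Fin 6, ∃ a b, u + (k.val : ℝ) ∈ X a ∧ u + (k.val : ℝ) ∈ X b ∧ ¬ free a b}

omit [DecidableEq ι] [Nonempty Λ] [Finite Λ] in
theorem bad_finite (hm : Marked X free ty) (p q : ℝ) (hq : q ≤ p + 1) :
    (Bad X free (Ioo p q)).Finite := by
  classical
  have h1 : ∀ u : Bad X free (Ioo p q), ∃ x : ι × Fin 6, Occ X free ty x.1 (u + (x.2.val : ℝ)) := by
    rintro ⟨u, -, k, a, b, ha, hb, hf⟩
    obtain ⟨τ, h1, -⟩ := hm.mark _ a b ha hb hf
    exact ⟨(τ, k), a, b, ha, hb, hf, h1⟩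
  choose g hg using h1
  have hinj : Function.Injective g := by
    intro u v huv
    have hu := hg u
    have hv := hg v
    rw [huv] at hu
    obtain ⟨n, hn⟩ := hm.uniq _ _ _ hu hv
    have hu' := u.2.1
    have hv' := v.2.1
    have := int_aux (g v).2.isLt (g v).2.isLt hn (by rw [abs_lt]; constructor <;> linarith [hu'.1, hu'.2, hv'.1, hv'.2])
    exact Subtype.ext this.1.symm
  exact Set.finite_coe_iff.1 (Finite.of_injective g hinj)


omit [Finite ι] in
/-- the chain at one time -/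
theorem jump_reach (w : Word X Leg)
    (hstep : ∀ h k l, Leg h → Leg (Function.update h k l) → free (h k) l →
      cmp (Function.update h k l) = cmp h)
    (hm : Marked X free ty) (u : ℝ) :
    ∃ (c c' : ℕ) (S : Finset ι), Reach (Step Leg cmp ty) S c c' ∧
      (∀ τ ∈ S, ∃ k : Fin 6, Occ X free ty τ (u + (k.val : ℝ))) ∧
      (∀ᶠ v in 𝓝[<] u, cmp (st X v) = c) ∧ (∀ᶠ v in 𝓝[>] u, cmp (st X v) = c') := by
  classical
  let NF : Fin 6 → Prop := fun k => ∃ a b, u + (k.val : ℝ) ∈ X a ∧ u + (k.val : ℝ) ∈ X b ∧ ¬ free a b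
  have h1 : ∀ k : Fin 6, ∃ x : Λ × Λ, NF k → Mark X x.1 x.2 (u + (k.val : ℝ)) ∧
      ¬ free x.1 x.2 ∧ ∃ τ, ty x.1 x.2 τ := by
    intro k
    by_cases hk : NF k
    · obtain ⟨a, b, ha, hb, hf⟩ := hk
      obtain ⟨τ, t1, hM | hM⟩ := hm.mark _ a b ha hb hf
      · exact ⟨(a, b), fun _ => ⟨hM, hf, τ, t1⟩⟩
      · exact ⟨(b, a), fun _ => ⟨hM, fun h => hf (hm.fsymm _ _ h), τ, hm.tsymm _ _ _ t1⟩⟩
    · exact ⟨(Classical.arbitrary Λ, Classical.arbitrary Λ), fun h => absurd h hk⟩
  choose x hx using h1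
  have h2 : ∀ k : Fin 6, NF k → ∃ τ, ty (x k).1 (x k).2 τ := fun k hk => (hx k hk).2.2
  by_cases hne : ∃ k, NF k
  swap
  · -- nothing happens
    push Not at hne
    have h3 := w.ev_nhds (cmp := cmp) hstep (u := u) (fun k a b ha hb => by
      by_contra hf
      exact hne k ⟨a, b, ha, hb, hf⟩)
    exact ⟨_, _, ∅, Reach.refl _, by simp, h3.filter_mono nhdsWithin_le_nhds,
      h3.filter_mono nhdsWithin_le_nhds⟩
  obtain ⟨k0, hk0⟩ := hne
  obtain ⟨τ0, -⟩ := h2 k0 hk0
  have h3 : ∀ k : Fin 6, ∃ τ, NF k → ty (x k).1 (x k).2 τ := by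
    intro k
    by_cases hk : NF k
    · obtain ⟨τ, h⟩ := h2 k hk
      exact ⟨τ, fun _ => h⟩
    · exact ⟨τ0, fun h => absurd h hk⟩
  choose t ht using h3
  set M : Finset (Fin 6) := Finset.univ.filter fun k => NF k with hMdef
  have hMm : ∀ k, k ∈ M ↔ NF k := fun k => by simp [hMdef]
  obtain ⟨h, hL, hins, hl, hr, -⟩ := w.jump hstep hm.frefl M (fun k => (x k).1) (fun k => (x k).2)
    (fun k hk => (hx k ((hMm k).1 hk)).1) (fun k hk a b ha hb => by
      by_contra hf
      exact hk ((hMm k).2 ⟨a, b, ha, hb, hf⟩))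
  have hocc : ∀ k, NF k → Occ X free ty (t k) (u + (k.val : ℝ)) := fun k hk =>
    ⟨(x k).1, (x k).2, (hx k hk).1.mem_a, (hx k hk).1.mem_b, (hx k hk).2.1, ht k hk⟩
  have hinj : ∀ k l, NF k → NF l → t k = t l → k = l := by
    intro k l hk hl hkl
    have h4 := hocc k hk
    have h5 := hocc l hl
    rw [← hkl] at h5
    obtain ⟨n, hn⟩ := hm.uniq _ _ _ h4 h5
    exact Fin.ext (int_aux k.isLt l.isLt hn (by simp)).2
  have key : ∀ S : Finset (Fin 6), S ⊆ M → Reach (Step Leg cmp ty) (S.image t) (cmp (h ∅)) (cmp (h S)) := by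
    intro S
    induction S using Finset.induction_on with
    | empty => intro _; simpa using Reach.refl (cmp (h ∅))
    | insert k S hk ih =>
      intro hS
      have hkM : k ∈ M := hS (Finset.mem_insert_self _ _)
      have hSM : S ⊆ M := fun j hj => hS (Finset.mem_insert_of_mem hj)
      obtain ⟨e1, e2⟩ := hins S k hkM hk
      rw [Finset.image_insert]
      refine (ih hSM).tail ?_ ⟨h S, k, (x k).2, hL S, ?_, ?_, rfl, ?_⟩
      · intro hmem
        obtain ⟨l, hl, hlt⟩ := Finset.mem_image.1 hmem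
        have := hinj l k ((hMm l).1 (hSM hl)) ((hMm k).1 hkM) hlt
        exact hk (this ▸ hl)
      · rw [← e2]; exact hL _
      · rw [e1]; exact ht k ((hMm k).1 hkM)
      · rw [e2]
  refine ⟨_, _, M.image t, key M Finset.Subset.rfl, ?_, hl, hr⟩
  intro τ hτ
  obtain ⟨k, hk, rfl⟩ := Finset.mem_image.1 hτ
  exact ⟨k, hocc k ((hMm k).1 hk)⟩

/-- the chain over an interval of length at most one -/
theorem walk (w : Word X Leg)
    (hstep : ∀ h k l, Leg h → Leg (Function.update h k l) → free (h k) l →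
      cmp (Function.update h k l) = cmp h)
    (hm : Marked X free ty) {q : ℝ} : ∀ (n : ℕ) (p : ℝ), p < q → q ≤ p + 1 →
      (Bad X free (Ioo p q)).ncard = n → ∀ c c' : ℕ, (∀ᶠ v in 𝓝[>] p, cmp (st X v) = c) →
      (∀ᶠ v in 𝓝[<] q, cmp (st X v) = c') →
      ∃ S : Finset ι, Reach (Step Leg cmp ty) S c c' ∧
        ∀ τ ∈ S, ∃ u ∈ Ioo p q, ∃ k : Fin 6, Occ X free ty τ (u + (k.val : ℝ)) := by
  classical
  intro n
  induction n with
  | zero =>
    intro p hpq hq hn c c' hc hc'
    have hB := bad_finite (ty := ty) hm p q hq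
    rw [Set.ncard_eq_zero hB] at hn
    have : c = c' := w.seg hstep hpq (fun u hu k a b ha hb => by
      by_contra hf
      have : u ∈ Bad X free (Ioo p q) := ⟨hu, k, a, b, ha, hb, hf⟩
      rw [hn] at this
      exact this) hc hc'
    subst this
    exact ⟨∅, Reach.refl _, by simp⟩
  | succ n ih =>
    intro p hpq hq hn c c' hc hc'
    have hB := bad_finite (ty := ty) hm p q hq
    have hne : (Bad X free (Ioo p q)).Nonempty := by
      rw [Set.nonempty_iff_ne_empty]
      intro h0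
      rw [h0, Set.ncard_empty] at hn
      omega
    obtain ⟨u, hmin⟩ := hB.exists_minimal hne
    have hu : u ∈ Bad X free (Ioo p q) := hmin.prop
    have hmin' : ∀ v ∈ Bad X free (Ioo p q), u ≤ v := fun v hv => by
      rcases le_total u v with h | h
      · exact h
      · exact hmin.le_of_le hv h
    have hu1 : p < u := hu.1.1
    have hu2 : u < q := hu.1.2
    obtain ⟨d, d', S1, hR1, hS1, hd, hd'⟩ := jump_reach w (cmp := cmp) hstep hm u
    have hcd : c = d := w.seg hstep hu1 (fun v hv k a b ha hb => by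
      by_contra hf
      have h1 : v ∈ Bad X free (Ioo p q) := ⟨⟨hv.1, hv.2.trans hu2⟩, k, a, b, ha, hb, hf⟩
      exact absurd (hmin' v h1) (not_le.2 hv.2)) hc hd
    subst hcd
    have hBu : Bad X free (Ioo u q) = Bad X free (Ioo p q) \ {u} := by
      ext v
      constructor
      · rintro ⟨hv, hrest⟩
        exact ⟨⟨⟨hu1.trans hv.1, hv.2⟩, hrest⟩, fun h => (hv.1.ne' (mem_singleton_iff.1 h))⟩
      · rintro ⟨hv, hne⟩
        have := hmin' v hv
        exact ⟨⟨lt_of_le_of_ne this fun h => hne (mem_singleton_iff.2 h.symm), hv.1.2⟩, hv.2⟩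
    obtain ⟨S2, hR2, hS2⟩ := ih u hu2 (hq.trans (by linarith)) (by
      rw [hBu, Set.ncard_diff_singleton_of_mem hu, hn]; omega) d' c' hd' hc'
    refine ⟨S1 ∪ S2, hR1.trans hR2 ?_, ?_⟩
    · rw [Finset.disjoint_left]
      intro τ h1 h2
      obtain ⟨k, hk⟩ := hS1 τ h1
      obtain ⟨v, hv, l, hl⟩ := hS2 τ h2
      obtain ⟨m, hm'⟩ := hm.uniq _ _ _ hk hl
      have := int_aux k.isLt l.isLt hm' (by rw [abs_lt]; constructor <;> linarith [hv.1, hv.2])
      exact absurd this.1 hv.1.ne'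
    · intro τ hτ
      rcases Finset.mem_union.1 hτ with h1 | h2
      · obtain ⟨k, hk⟩ := hS1 τ h1
        exact ⟨u, ⟨hu1, hu2⟩, k, hk⟩
      · obtain ⟨v, hv, k, hk⟩ := hS2 τ h2
        exact ⟨v, ⟨hu1.trans hv.1, hv.2⟩, k, hk⟩

/-- **Main theorem.** A marked word joins some component with the component of the rotation. -/
theorem Word.exists_reach (w : Word X Leg)
    (hstep : ∀ h k l, Leg h → Leg (Function.update h k l) → free (h k) l →
      cmp (Function.update h k l) = cmp h)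
    (hm : Marked X free ty) :
    ∃ h : Fin 6 → Λ, Leg h ∧ ∃ S : Finset ι, Reach (Step Leg cmp ty) S (cmp h) (cmp (rot h)) := by
  classical
  have hB := bad_finite (ty := ty) hm 0 1 (by norm_num)
  obtain ⟨p, hp, hpB⟩ := ((Ioo_infinite (show (0 : ℝ) < 1 by norm_num)).sdiff hB).nonempty
  have hfree : ∀ k : Fin 6, ∀ a b, p + (k.val : ℝ) ∈ X a → p + (k.val : ℝ) ∈ X b → free a b := by
    intro k a b ha hb
    by_contra hf
    exact hpB ⟨hp, k, a, b, ha, hb, hf⟩
  have h0 := w.ev_nhds (cmp := cmp) hstep hfree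
  have h1 := w.ev_nhds (cmp := cmp) hstep (u := p + 1) (fun k a b ha hb => by
    rw [w.mem_add] at ha hb
    exact hfree _ a b ha hb)
  rw [w.st_add_one] at h1
  obtain ⟨S, hS, -⟩ := walk w hstep hm _ p (by linarith) le_rfl rfl _ _
    (h0.filter_mono nhdsWithin_le_nhds) (h1.filter_mono nhdsWithin_le_nhds)
  exact ⟨st X p, w.leg p _ (w.st_mem p), S, hS⟩

end Vale.Agent.P032.W5
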