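import Vale.Agent.P032.Words5.Cert2

/-!
# The word of a clean five coloured centre

`X 0, .., X 4` are the closures of the exact arcs of the five diagonals `E_0, .., E_4` (`E_j` and
`E_(j+1)` have a common colour), `X 5` is the closure of the arcs with the missing colour `f`.  Angles
are measured in units of 60 degrees.
-/

namespace Vale.Agent.P032.W5

open Vale.Agent.P032.Words

open Set Filter Topology

/-- the letters of one palette: equal, or one is `f`, or diagonals with a common colour -/
def prL (a b : ℕ) : Bool :=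
  a == b || a == 5 || b == 5 || (a + 1) % 5 == b || (b + 1) % 5 == a

/-- the palettes of the frozen events; rows are the angles `u, .., u + 5` -/
def FZ (i : Fin 4) (x : Fin 5) : Fin 6 → Fin 6 × Fin 6 :=
  let e : Fin 5 → Fin 6 := Fin.castSucc
  match i with
  | 0 => ![(e x, 5), (e (x + 2), 5), (e x, 5), (e (x + 2), 5), (e x, 5), (e (x + 2), 5)]
  | 1 => ![(e x, 5), (e (x + 2), 5), (e x, 5), (e (x + 2), 5), (e x, 5), (e (x + 3), 5)]
  | 2 => ![(e x, 5), (e (x + 3), 5), (e x, 5), (e (x + 3), 5), (e x, 5), (e (x + 2), 5)]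
  | 3 => ![(e x, 5), (e (x + 2), e (x + 1)), (e x, 5), (5, e (x + 2)), (e (x + 1), e x), (5, e (x + 2))]

/-- The word of a clean five coloured centre. -/
structure Pent (X : Fin 6 → Set ℝ) : Prop where
  closed : ∀ l, IsClosed (X l)
  cover : ∀ u, ∃ l, u ∈ X l
  per : ∀ l u, u + 6 ∈ X l ↔ u ∈ X l
  gen : Dense {u | ∃ l, ∀ m, u ∈ X m → m = l}
  two : ∀ u a b c, u ∈ X a → u ∈ X b → u ∈ X c → a ≠ b → c = a ∨ c = b
  pair : ∀ u (a b : Fin 6), u ∈ X a → u ∈ X b → prL a.val b.val = true
  sixty : ∀ u (a b : Fin 6), (∀ m, u ∈ X m → m = a) → (∀ m, u + 1 ∈ X m → m = b) →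
    adjN a.val b.val = true
  anti : ∀ u (a b : Fin 6), (∀ m, u ∈ X m → m = a) → (∀ m, u + 3 ∈ X m → m = b) →
    antN a.val b.val = true
  swap1 : ∀ u (a a' b b' : Fin 6), u ∈ X a → u ∈ X a' → u + 1 ∈ X b → u + 1 ∈ X b' →
    adjN a.val b.val = true → adjN a'.val b'.val = true → sw1 a.val a'.val b.val b'.val = true
  swap3 : ∀ u (a a' b b' : Fin 6), u ∈ X a → u ∈ X a' → u + 3 ∈ X b → u + 3 ∈ X b' →
    antN a.val b.val = true → antN a'.val b'.val = true → sw3 a.val a'.val b.val b'.val = true
  nofr : ∀ u (x : Fin 5) (i : Fin 4),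
    ¬ ∀ k : Fin 6, u + (k.val : ℝ) ∈ X (FZ i x k).1 ∧ u + (k.val : ℝ) ∈ X (FZ i x k).2

section per
variable {X : Fin 6 → Set ℝ}

theorem Pent.add1 (P : Pent X) (u : ℝ) (k : Fin 6) (l : Fin 6) :
    u + (k.val : ℝ) + 1 ∈ X l ↔ u + ((k + 1).val : ℝ) ∈ X l := by
  by_cases hk : k = 5
  · subst hk
    have h1 : ((5 : Fin 6) + 1).val = 0 := rfl
    have h2 : (5 : Fin 6).val = 5 := rfl
    rw [h1, h2]
    have : u + ((5 : ℕ) : ℝ) + 1 = (u + ((0 : ℕ) : ℝ)) + 6 := by push_cast; ring
    rw [this, P.per]
  · have h1 : (k + 1).val = k.val + 1 := by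
      have : k.val ≠ 5 := fun h => hk (Fin.ext h)
      have h6 := k.isLt
      rw [Fin.val_add_one_of_lt]
      rw [Fin.lt_def]
      show k.val < 5
      omega
    rw [h1]
    have : u + (k.val : ℝ) + 1 = u + ((k.val + 1 : ℕ) : ℝ) := by push_cast; ring
    rw [this]

theorem Pent.addr (P : Pent X) (u : ℝ) (r k : Fin 6) (l : Fin 6) :
    u + (r.val : ℝ) + (k.val : ℝ) ∈ X l ↔ u + ((k + r).val : ℝ) ∈ X l := by
  have e : (k + r).val = k.val + r.val ∨ (k + r).val + 6 = k.val + r.val := by
    rw [Fin.val_add]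
    have h1 := k.isLt
    have h2 := r.isLt
    omega
  rcases e with e | e
  · have : u + (r.val : ℝ) + (k.val : ℝ) = u + ((k + r).val : ℝ) := by
      rw [e]; push_cast; ring
    rw [this]
  · have : u + (r.val : ℝ) + (k.val : ℝ) = u + ((k + r).val : ℝ) + 6 := by
      have e' : (((k + r).val : ℝ)) + 6 = (k.val : ℝ) + (r.val : ℝ) := by exact_mod_cast e
      linarith
    rw [this, P.per]

theorem Pent.add3 (P : Pent X) (u : ℝ) (k : Fin 6) (l : Fin 6) :
    u + (k.val : ℝ) + 3 ∈ X l ↔ u + ((k + 3).val : ℝ) ∈ X l := by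
  have h := P.addr u k 3 l
  have h3 : (((3 : Fin 6).val : ℕ) : ℝ) = 3 := by norm_num
  rw [h3, add_comm 3 k] at h
  exact h

end per

/-- the two ends of a typed change; types `0..4` are `t_j`, `5..9` are `c_j` -/
def typN (q a b : ℕ) : Bool :=
  if q < 5 then (a == q && b == 5) || (a == 5 && b == q)
  else (a == (q + 2) % 5 && b == (q + 3) % 5) || (a == (q + 3) % 5 && b == (q + 2) % 5)

/-- the points of type `q` -/
def Pts (X : Fin 6 → Set ℝ) (q : ℕ) : Set ℝ :=
  {u | ∃ a b : Fin 6, typN q a.val b.val = true ∧ u ∈ X a ∧ u ∈ X b}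

/-- the data of a pattern -/
structure Pat (m : ℕ) (fr : ℕ → ℕ → Bool) (mk : ℕ → ℕ → ℕ → Bool) (abs : List ℕ) (on : Fin m → ℕ) :
    Prop where
  frefl : ∀ a : Fin 6, fr a.val a.val = true
  fsymm : ∀ a b : Fin 6, fr a.val b.val = fr b.val a.val
  msymm : ∀ (a b : Fin 6) (t : Fin m), mk a.val b.val t.val = mk b.val a.val t.val
  all : ∀ a b : Fin 6, prL a.val b.val = true → fr a.val b.val = true ∨
    (∃ t : Fin m, mk a.val b.val t.val = true) ∨ ∃ q ∈ abs, typN q a.val b.val = true
  mkty : ∀ (a b : Fin 6) (t : Fin m), mk a.val b.val t.val = true → typN (on t) a.val b.val = true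

section
variable {X : Fin 6 → Set ℝ} {N m T R : ℕ} {fr : ℕ → ℕ → Bool} {mk : ℕ → ℕ → ℕ → Bool}
  {abs : List ℕ} {on : Fin m → ℕ}

theorem mem_of_pal {x p q : ℕ} {v : ℝ} {a b P Q : Fin 6} (ha : v ∈ X a) (hb : v ∈ X b)
    (h : pal5 x p q a.val b.val = true) (hP : P.val = lt5 x p) (hQ : Q.val = lt5 x q) :
    v ∈ X P ∧ v ∈ X Q := by
  unfold pal5 at h
  rw [← hP, ← hQ] at h
  simp only [Bool.or_eq_true, Bool.and_eq_true, beq_iff_eq] at h
  rcases h with ⟨h1, h2⟩ | ⟨h1, h2⟩
  · rw [← Fin.ext h1, ← Fin.ext h2]; exact ⟨ha, hb⟩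
  · rw [← Fin.ext h1, ← Fin.ext h2]; exact ⟨hb, ha⟩

/-- offsets of the palettes -/
def OZ (i : Fin 4) : Fin 6 → ℕ × ℕ :=
  match i with
  | 0 => ![(0, 5), (2, 5), (0, 5), (2, 5), (0, 5), (2, 5)]
  | 1 => ![(0, 5), (2, 5), (0, 5), (2, 5), (0, 5), (3, 5)]
  | 2 => ![(0, 5), (3, 5), (0, 5), (3, 5), (0, 5), (2, 5)]
  | 3 => ![(0, 5), (2, 1), (0, 5), (5, 2), (1, 0), (5, 2)]

theorem FZ_fst : ∀ (i : Fin 4) (x : Fin 5) (k : Fin 6), (FZ i x k).1.val = lt5 x.val (OZ i k).1 := by
  decide

theorem FZ_snd : ∀ (i : Fin 4) (x : Fin 5) (k : Fin 6), (FZ i x k).2.val = lt5 x.val (OZ i k).2 := by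
  decide

/-- no frozen pairs -/
theorem Pent.frz (P : Pent X) {u : ℝ} {h h' : Hx5} (h1 : ∀ k, u + (k.val : ℝ) ∈ X (h k))
    (h2 : ∀ k, u + (k.val : ℝ) ∈ X (h' k)) :
    frzN (h 0).val (h 1).val (h 2).val (h 3).val (h 4).val (h 5).val
      (h' 0).val (h' 1).val (h' 2).val (h' 3).val (h' 4).val (h' 5).val = false := by
  rw [Bool.eq_false_iff]
  intro hf
  -- one form at one rotation
  have one : ∀ (r : Fin 6) (x : Fin 5) (i : Fin 4), ¬ ∀ k : Fin 6,
      pal5 x.val (OZ i k).1 (OZ i k).2 (h (k + r)).val (h' (k + r)).val = true := by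
    intro r x i hk
    refine P.nofr (u + (r.val : ℝ)) x i fun k => ?_
    exact mem_of_pal ((P.addr u r k _).2 (h1 (k + r))) ((P.addr u r k _).2 (h2 (k + r))) (hk k)
      (FZ_fst i x k) (FZ_snd i x k)
  have two : ∀ (r : Fin 6) (x : Fin 5), fzA x.val (h (0 + r)).val (h (1 + r)).val (h (2 + r)).val
      (h (3 + r)).val (h (4 + r)).val (h (5 + r)).val (h' (0 + r)).val (h' (1 + r)).val
      (h' (2 + r)).val (h' (3 + r)).val (h' (4 + r)).val (h' (5 + r)).val ≠ true := by
    intro r x hz
    unfold fzA at hz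
    simp only [Bool.or_eq_true, Bool.and_eq_true] at hz
    obtain ⟨⟨z0, z2⟩, hz⟩ := hz
    rcases hz with ((⟨⟨⟨z1, z3⟩, z4⟩, z5⟩ | ⟨⟨⟨z1, z3⟩, z4⟩, z5⟩) | ⟨⟨⟨z1, z3⟩, z4⟩, z5⟩) |
      ⟨⟨⟨z1, z3⟩, z4⟩, z5⟩
    · refine one r x 0 fun k => ?_
      fin_cases k
      exacts [z0, z1, z2, z3, z4, z5]
    · refine one r x 1 fun k => ?_
      fin_cases k
      exacts [z0, z1, z2, z3, z4, z5]
    · refine one r x 2 fun k => ?_
      fin_cases k
      exacts [z0, z1, z2, z3, z4, z5]
    · refine one r x 3 fun k => ?_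
      fin_cases k
      exacts [z0, z1, z2, z3, z4, z5]
  unfold frzN at hf
  rw [List.any_eq_true] at hf
  obtain ⟨x, hx, hf⟩ := hf
  have hx' : x < 5 := by
    simp only [List.mem_cons, List.not_mem_nil, or_false] at hx
    omega
  simp only [Bool.or_eq_true] at hf
  rcases hf with ((((hf | hf) | hf) | hf) | hf) | hf
  · exact two 0 ⟨x, hx'⟩ hf
  · exact two 1 ⟨x, hx'⟩ hf
  · exact two 2 ⟨x, hx'⟩ hf
  · exact two 3 ⟨x, hx'⟩ hf
  · exact two 4 ⟨x, hx'⟩ hf
  · exact two 5 ⟨x, hx'⟩ hf

theorem mem_tys5 {h h' : Hx5} {t : Fin m} :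
    t ∈ tys (fun a b : Fin 6 => fr a.val b.val = true)
      (fun (a b : Fin 6) (t : Fin m) => mk a.val b.val t.val = true) h h' ↔
      ∃ k, occN fr mk t.val (h k).val (h' k).val = true := by
  rw [mem_tys]
  constructor
  · rintro ⟨k, h1, h2⟩
    refine ⟨k, ?_⟩
    unfold occN
    rw [Bool.and_eq_true, Bool.not_eq_true']
    exact ⟨by simpa using h1, h2⟩
  · rintro ⟨k, hk⟩
    unfold occN at hk
    rw [Bool.and_eq_true, Bool.not_eq_true'] at hk
    refine ⟨k, ?_, hk.2⟩
    show ¬ (fr (h k).val (h' k).val = true)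
    rw [hk.1]; exact Bool.false_ne_true

theorem cnt_pos {h h' : Hx5} (t : ℕ) :
    cntN fr mk (h 0).val (h 1).val (h 2).val (h 3).val (h 4).val (h 5).val
      (h' 0).val (h' 1).val (h' 2).val (h' 3).val (h' 4).val (h' 5).val t ≠ 0 ↔
      ∃ k : Fin 6, occN fr mk t (h k).val (h' k).val = true := by
  constructor
  · intro h3
    by_contra hcon
    push Not at hcon
    apply h3
    unfold cntN
    have hz : ∀ k : Fin 6, occN fr mk t (h k).val (h' k).val = false := fun k => by
      simpa using hcon k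
    rw [hz 0, hz 1, hz 2, hz 3, hz 4, hz 5]
    rfl
  · rintro ⟨k, hk⟩ h3
    unfold cntN at h3
    have e : ∀ b : Bool, b = true → b.toNat = 1 := by decide
    fin_cases k
    · have := e _ hk; simp only [Fin.zero_eta] at this; omega
    · have := e _ hk; simp only [Fin.mk_one] at this; omega
    · have := e _ hk; simp only [Fin.reduceFinMk] at this; omega
    · have := e _ hk; simp only [Fin.reduceFinMk] at this; omega
    · have := e _ hk; simp only [Fin.reduceFinMk] at this; omega
    · have := e _ hk; simp only [Fin.reduceFinMk] at this; omega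

theorem cnt_le {h h' : Hx5} (t : ℕ)
    (hu : ∀ k l : Fin 6, occN fr mk t (h k).val (h' k).val = true →
      occN fr mk t (h l).val (h' l).val = true → k = l) :
    cntN fr mk (h 0).val (h 1).val (h 2).val (h 3).val (h 4).val (h 5).val
      (h' 0).val (h' 1).val (h' 2).val (h' 3).val (h' 4).val (h' 5).val t ≤ 1 := by
  have hz : ∀ k : Fin 6, (∀ l : Fin 6, l ≠ k → occN fr mk t (h l).val (h' l).val = false) →
      cntN fr mk (h 0).val (h 1).val (h 2).val (h 3).val (h 4).val (h 5).val
      (h' 0).val (h' 1).val (h' 2).val (h' 3).val (h' 4).val (h' 5).val t ≤ 1 := by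
    intro k hk
    unfold cntN
    have hb : ∀ b : Bool, b.toNat ≤ 1 := by decide
    fin_cases k
    · rw [hk 1 (by decide), hk 2 (by decide), hk 3 (by decide), hk 4 (by decide), hk 5 (by decide)]
      simpa using hb _
    · rw [hk 0 (by decide), hk 2 (by decide), hk 3 (by decide), hk 4 (by decide), hk 5 (by decide)]
      simpa using hb _
    · rw [hk 0 (by decide), hk 1 (by decide), hk 3 (by decide), hk 4 (by decide), hk 5 (by decide)]
      simpa using hb _
    · rw [hk 0 (by decide), hk 1 (by decide), hk 2 (by decide), hk 4 (by decide), hk 5 (by decide)]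
      simpa using hb _
    · rw [hk 0 (by decide), hk 1 (by decide), hk 2 (by decide), hk 3 (by decide), hk 5 (by decide)]
      simpa using hb _
    · rw [hk 0 (by decide), hk 1 (by decide), hk 2 (by decide), hk 3 (by decide), hk 4 (by decide)]
      simpa using hb _
  by_cases hex : ∃ k : Fin 6, occN fr mk t (h k).val (h' k).val = true
  · obtain ⟨k, hk⟩ := hex
    refine hz k fun l hlk => ?_
    rw [Bool.eq_false_iff]
    intro h3
    exact hlk (hu l k h3 hk)
  · push Not at hex
    exact hz 0 fun l _ => by simpa using hex l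

/-- the relation between two selections -/
theorem Pent.rel (P : Pent X) (hP : chkP N m T R fr mk = true) (hS : chkS N m T R fr mk = true)
    (frefl : ∀ a : Fin 6, fr a.val a.val = true)
    (hval : ∀ u (a b : Fin 6), u ∈ X a → u ∈ X b → valN m fr mk a.val b.val = true) (u : ℝ) (n : ℕ) :
    ∀ h h' : Hx5, (Finset.univ.filter fun k => h k ≠ h' k).card = n →
      (∀ k, u + (k.val : ℝ) ∈ X (h k)) → (∀ k, u + (k.val : ℝ) ∈ X (h' k)) → Leg5 h → Leg5 h' →
      (∀ (t : Fin m) (k l : Fin 6), occN fr mk t.val (h k).val (h' k).val = true →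
        occN fr mk t.val (h l).val (h' l).val = true → k = l) →
      RelN N m R (tys (fun a b : Fin 6 => fr a.val b.val = true)
        (fun (a b : Fin 6) (t : Fin m) => mk a.val b.val t.val = true) h h') (cmp5 T h) (cmp5 T h') := by
  classical
  have hoself : ∀ (t : ℕ) (a : Fin 6), occN fr mk t a.val a.val = false := by
    intro t a
    unfold occN
    rw [frefl a]; rfl
  induction n with
  | zero =>
    intro h h' hc h1 h2 hl hl' huq
    have he : h = h' := by
      funext k
      by_contra hk
      have : k ∈ (Finset.univ.filter fun k => h k ≠ h' k) := by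
        rw [Finset.mem_filter]; exact ⟨Finset.mem_univ _, hk⟩
      rw [Finset.card_eq_zero.mp hc] at this
      exact absurd this (Finset.notMem_empty _)
    subst he
    refine ⟨0, Nat.two_pow_pos m, ?_, lt_of_chkP hP hl, lt_of_chkP hP hl, ?_⟩
    · intro t
      rw [mem_tys5]
      constructor
      · intro h3; simp at h3
      · rintro ⟨k, hk⟩
        rw [hoself] at hk
        exact absurd hk Bool.false_ne_true
    · intro n0 _ _
      rw [Nat.or_zero, Nat.and_self]
  | succ n ih =>
    intro h h' hc h1 h2 hl hl' huq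
    by_cases hex : ∃ k : Fin 6, fwdN (h (k + 5)).val (h' k).val (h (k + 1)).val (h (k + 3)).val
        (h k).val = true
    · obtain ⟨k, hk⟩ := hex
      have hne : h k ≠ h' k := by
        intro he
        unfold fwdN at hk
        rw [he] at hk
        simp at hk
      set g := Function.update h k (h' k) with hg
      have hgk : g k = h' k := Function.update_self ..
      have hgo : ∀ j, j ≠ k → g j = h j := fun j hj => Function.update_of_ne hj ..
      have hgl : Leg5 g := fwd_leg hl k (h' k) hk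
      have hgX : ∀ j : Fin 6, u + (j.val : ℝ) ∈ X (g j) := by
        intro j
        by_cases hj : j = k
        · rw [hj, hgk]; exact h2 k
        · rw [hgo j hj]; exact h1 j
      have hcard : (Finset.univ.filter fun j => g j ≠ h' j).card = n := by
        have : (Finset.univ.filter fun j => g j ≠ h' j) =
            (Finset.univ.filter fun j => h j ≠ h' j).erase k := by
          ext j
          rw [Finset.mem_erase, Finset.mem_filter, Finset.mem_filter]
          constructor
          · rintro ⟨-, h3⟩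
            have hjk : j ≠ k := by
              rintro rfl; exact h3 hgk
            rw [hgo j hjk] at h3
            exact ⟨hjk, Finset.mem_univ _, h3⟩
          · rintro ⟨hjk, -, h3⟩
            rw [hgo j hjk]
            exact ⟨Finset.mem_univ _, h3⟩
        rw [this, Finset.card_erase_of_mem, hc, Nat.add_sub_cancel]
        rw [Finset.mem_filter]; exact ⟨Finset.mem_univ _, hne⟩
      have ocg : ∀ (t : ℕ) (j : Fin 6), occN fr mk t (g j).val (h' j).val = true →
          j ≠ k ∧ occN fr mk t (h j).val (h' j).val = true := by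
        intro t j h3
        have hjk : j ≠ k := by
          rintro rfl
          rw [hgk, hoself] at h3
          exact absurd h3 Bool.false_ne_true
        rw [hgo j hjk] at h3
        exact ⟨hjk, h3⟩
      have ocs : ∀ (t : ℕ) (j : Fin 6), occN fr mk t (h j).val (g j).val = true →
          j = k ∧ occN fr mk t (h k).val (h' k).val = true := by
        intro t j h3
        by_cases hjk : j = k
        · subst hjk; rw [hgk] at h3; exact ⟨rfl, h3⟩
        · rw [hgo j hjk, hoself] at h3
          exact absurd h3 Bool.false_ne_true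
      have r2 := ih g h' hcard hgX h2 hgl hl' (fun t j l hj hl2 =>
        huq t j l (ocg t.val j hj).2 (ocg t.val l hl2).2)
      have r1 : RelN N m R (tys (fun a b : Fin 6 => fr a.val b.val = true)
          (fun (a b : Fin 6) (t : Fin m) => mk a.val b.val t.val = true) h g) (cmp5 T h) (cmp5 T g) := by
        have hv := hval _ _ _ (h1 k) (h2 k)
        have hleaf := chkS_spec hS hl k (h' k) hk hv
        refine ⟨onN m fr mk (h k).val (h' k).val, maskN_lt _ m, ?_, lt_of_chkP hP hl,
          lt_of_chkP hP hgl, fun n0 hn0 hz => leafN_spec hleaf hn0 hz⟩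
        intro t
        unfold onN
        rw [maskN_testBit, mem_tys5]
        constructor
        · rintro ⟨-, h3⟩
          refine ⟨k, ?_⟩
          rw [hgk]
          by_contra hcon
          rw [Bool.not_eq_true] at hcon
          rw [hcon] at h3
          exact h3 rfl
        · rintro ⟨j, hj⟩
          refine ⟨t.isLt, ?_⟩
          rw [(ocs t.val j hj).2]
          exact one_ne_zero
      have hdis : Disjoint (tys (fun a b : Fin 6 => fr a.val b.val = true)
          (fun (a b : Fin 6) (t : Fin m) => mk a.val b.val t.val = true) h g)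
          (tys (fun a b : Fin 6 => fr a.val b.val = true)
          (fun (a b : Fin 6) (t : Fin m) => mk a.val b.val t.val = true) g h') := by
        rw [Finset.disjoint_left]
        intro t h3 h4
        rw [mem_tys5] at h3 h4
        obtain ⟨j, hj⟩ := h3
        obtain ⟨l, hl2⟩ := h4
        have a1 := (ocs _ _ hj).2
        have a2 := ocg _ _ hl2
        exact a2.1 (huq t _ _ a2.2 a1)
      have hun : tys (fun a b : Fin 6 => fr a.val b.val = true)
          (fun (a b : Fin 6) (t : Fin m) => mk a.val b.val t.val = true) h h' =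
          tys (fun a b : Fin 6 => fr a.val b.val = true)
          (fun (a b : Fin 6) (t : Fin m) => mk a.val b.val t.val = true) h g ∪
          tys (fun a b : Fin 6 => fr a.val b.val = true)
          (fun (a b : Fin 6) (t : Fin m) => mk a.val b.val t.val = true) g h' := by
        ext t
        rw [Finset.mem_union, mem_tys5, mem_tys5, mem_tys5]
        constructor
        · rintro ⟨j, hj⟩
          by_cases hjk : j = k
          · left; refine ⟨k, ?_⟩; rw [hgk, ← hjk]; exact hj
          · right; refine ⟨j, ?_⟩; rw [hgo j hjk]; exact hj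
        · rintro (⟨j, hj⟩ | ⟨j, hj⟩)
          · exact ⟨k, (ocs _ _ hj).2⟩
          · exact ⟨j, (ocg _ _ hj).2⟩
      rw [hun]
      exact r1.comp r2 hdis
    · push Not at hex
      have hf : ∀ k : Fin 6, fwdN (h (k + 5)).val (h' k).val (h (k + 1)).val (h (k + 3)).val
          (h k).val = false := fun k => by simpa using hex k
      have hv : ∀ k, valN m fr mk (h k).val (h' k).val = true := fun k => hval _ _ _ (h1 k) (h2 k)
      have hs1 : ∀ k, sw1 (h k).val (h' k).val (h (k + 1)).val (h' (k + 1)).val = true := fun k => by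
        refine P.swap1 _ _ _ _ _ (h1 k) (h2 k) ((P.add1 u k _).2 (h1 (k + 1)))
          ((P.add1 u k _).2 (h2 (k + 1))) (hl.1 k) (hl'.1 k)
      have hs3 : ∀ k, sw3 (h k).val (h' k).val (h (k + 3)).val (h' (k + 3)).val = true := fun k => by
        refine P.swap3 _ _ _ _ _ (h1 k) (h2 k) ((P.add3 u k _).2 (h1 (k + 3)))
          ((P.add3 u k _).2 (h2 (k + 3))) (hl.2 k) (hl'.2 k)
      have key := chkP_spec hP hl hl' hv hf hs1 hs3
      have hfz := P.frz h1 h2
      unfold finN at key
      rw [hfz, Bool.or_false] at key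
      have hmult : ((List.range m).any fun t => Nat.ble 2 (cntN fr mk (h 0).val (h 1).val (h 2).val
          (h 3).val (h 4).val (h 5).val (h' 0).val (h' 1).val (h' 2).val (h' 3).val (h' 4).val
          (h' 5).val t)) = false := by
        rw [Bool.eq_false_iff]
        intro h3
        rw [List.any_eq_true] at h3
        obtain ⟨t, ht, h4⟩ := h3
        have := cnt_le (fr := fr) (mk := mk) (h := h) (h' := h') t
          (huq ⟨t, List.mem_range.mp ht⟩)
        have h5 := Nat.ble_eq.mp h4
        omega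
      rw [hmult, Bool.or_false] at key
      refine ⟨_, maskN_lt _ m, ?_, lt_of_chkP hP hl, lt_of_chkP hP hl',
        fun n0 hn0 hz => leafN_spec key hn0 hz⟩
      intro t
      rw [maskN_testBit, mem_tys5]
      constructor
      · rintro ⟨-, h3⟩; exact (cnt_pos t.val).1 h3
      · intro h3; exact ⟨t.isLt, (cnt_pos t.val).2 h3⟩

/-- the generic word -/
theorem Pent.gw (P : Pent X) (hP : chkP N m T R fr mk = true) (hS : chkS N m T R fr mk = true)
    (hD : chkD N R = true)
    (D : Pat m fr mk abs on) (habs : ∀ q ∈ abs, Pts X q = ∅)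
    (hon : ∀ t u v, u ∈ Pts X (on t) → v ∈ Pts X (on t) → ∃ n : ℤ, v = u + 6 * n) :
    GW X Leg5 (fun a b => fr a.val b.val = true) (fun a b (t : Fin m) => mk a.val b.val t.val = true)
      (cmp5 T) (RelN N m R) := by
  have hmark : ∀ u (a b : Fin 6), u ∈ X a → u ∈ X b → ¬ fr a.val b.val = true →
      ∃ t : Fin m, mk a.val b.val t.val = true := by
    intro u a b ha hb hf
    rcases D.all a b (P.pair u a b ha hb) with h | h | ⟨q, hq, h⟩
    · exact absurd h hf
    · exact h
    · have : u ∈ Pts X q := ⟨a, b, h, ha, hb⟩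
      rw [habs q hq] at this
      exact absurd this (notMem_empty u)
  have hval : ∀ u (a b : Fin 6), u ∈ X a → u ∈ X b → valN m fr mk a.val b.val = true := by
    intro u a b ha hb
    unfold valN
    rw [Bool.or_eq_true]
    by_cases hf : fr a.val b.val = true
    · exact Or.inl hf
    · obtain ⟨t, ht⟩ := hmark u a b ha hb hf
      right
      rw [List.any_eq_true]
      exact ⟨t.val, List.mem_range.mpr t.isLt, ht⟩
  refine
    { closed := P.closed
      cover := P.cover
      per := P.per
      gen := P.gen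
      two := P.two
      leg := ?_
      frefl := D.frefl
      fsymm := fun a b h => by rw [D.fsymm b a]; exact h
      tsymm := fun a b t h => by
        show mk b.val a.val t.val = true
        rw [D.msymm b a t]; exact h
      mark := hmark
      uniq := ?_
      rel0 := fun c c' h => h.zero hD
      relc := fun S S' a b c h h' hd => h.comp h' hd
      relp := ?_ }
  · intro u hu h hh
    have huniq : ∀ k m', u + (k.val : ℝ) ∈ X m' → m' = h k := by
      intro k m' hm'
      obtain ⟨l, hl⟩ := hu k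
      rw [hl m' hm', hl (h k) (hh k)]
    constructor
    · intro k
      refine P.sixty (u + (k.val : ℝ)) (h k) (h (k + 1)) (huniq k) ?_
      intro m' hm'
      exact huniq (k + 1) m' ((P.add1 u k m').1 hm')
    · intro k
      refine P.anti (u + (k.val : ℝ)) (h k) (h (k + 3)) (huniq k) ?_
      intro m' hm'
      exact huniq (k + 3) m' ((P.add3 u k m').1 hm')
  · rintro t u v ⟨a, b, ha, hb, -, ht⟩ ⟨c, d, hc, hd, -, ht'⟩
    exact hon t u v ⟨a, b, D.mkty a b t ht, ha, hb⟩ ⟨c, d, D.mkty c d t ht', hc, hd⟩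
  · intro u h h' h1 h2 hl hl' huq
    refine P.rel hP hS D.frefl hval u _ h h' rfl h1 h2 hl hl' ?_
    intro t k l hk hl2
    unfold occN at hk hl2
    rw [Bool.and_eq_true, Bool.not_eq_true'] at hk hl2
    exact huq k l t (by rw [hk.1]; exact Bool.false_ne_true) hk.2
      (by rw [hl2.1]; exact Bool.false_ne_true) hl2.2

/-- a pattern kills the word -/
theorem Pent.false_of (P : Pent X) (hP : chkP N m T R fr mk = true) (hS : chkS N m T R fr mk = true)
    (hD : chkD N R = true) (hF : chkF N m T R = true)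
    (D : Pat m fr mk abs on) (habs : ∀ q ∈ abs, Pts X q = ∅)
    (hon : ∀ t u v, u ∈ Pts X (on t) → v ∈ Pts X (on t) → ∃ n : ℤ, v = u + 6 * n) : False := by
  have w := P.gw hP hS hD D habs hon
  obtain ⟨h, hl, h0 | ⟨S, hS'⟩⟩ := w.exists_rel
  · refine noRelN hP hD hF hl ∅ ⟨0, Nat.two_pow_pos m, by simp, lt_of_chkP hP hl, ?_, ?_⟩
    · rw [← h0]; exact lt_of_chkP hP hl
    · intro n0 _ _
      rw [← h0, Nat.or_zero, Nat.and_self]
  · exact noRelN hP hD hF hl S hS'

end

end Vale.Agent.P032.W5
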