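import Vale.Agent.P032.Words5.PentSym
import Vale.Agent.P032.Words5.Pt0
import Vale.Agent.P032.Words5.Pt1
import Vale.Agent.P032.Words5.Pt2
import Vale.Agent.P032.Words5.Pt3
import Vale.Agent.P032.Words5.Pt4
import Vale.Agent.P032.Words5.Pt5
import Vale.Agent.P032.Words5.Pt6

/-!
# No clean five coloured centre: the word part

`Pent.elim`: a pentagram word in which for every `j` there is no point of type `t_j`, or no point of type
`c_j`, or at most one point of each of these two types, does not exist.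
-/

namespace Vale.Agent.P032.W5

open Vale.Agent.P032.Words

open Set Filter Topology

/-- types of the marks of the pattern `CCCCC` -/
def on0 (t : Fin 0) : ℕ := 0

theorem pat0 : Pat 0 Pt0.fr Pt0.mk [0, 1, 2, 3, 4] on0 where
  frefl := by decide +kernel
  fsymm := by decide +kernel
  msymm := by decide +kernel
  all := by decide +kernel
  mkty := by decide +kernel

theorem dead0 {s : Fin 5 → Fin 3} (hs : ∀ j, leP (s j) (![0, 0, 0, 0, 0] j) = true) : Dead s :=
  Dead.of Pt0.hP Pt0.hS Pt0.hD Pt0.hF pat0 ![0, 0, 0, 0, 0] (by decide) (by decide) hs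

/-- types of the marks of the pattern `CCFPF` -/
def on1 (t : Fin 1) : ℕ := [8].getD t.val 0

theorem pat1 : Pat 1 Pt1.fr Pt1.mk [0, 1] on1 where
  frefl := by decide +kernel
  fsymm := by decide +kernel
  msymm := by decide +kernel
  all := by decide +kernel
  mkty := by decide +kernel

theorem dead1 {s : Fin 5 → Fin 3} (hs : ∀ j, leP (s j) (![0, 0, 4, 2, 4] j) = true) : Dead s :=
  Dead.of Pt1.hP Pt1.hS Pt1.hD Pt1.hF pat1 ![0, 0, 4, 2, 4] (by decide) (by decide) hs

/-- types of the marks of the pattern `CCPFT` -/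
def on2 (t : Fin 1) : ℕ := [7].getD t.val 0

theorem pat2 : Pat 1 Pt2.fr Pt2.mk [0, 1, 9] on2 where
  frefl := by decide +kernel
  fsymm := by decide +kernel
  msymm := by decide +kernel
  all := by decide +kernel
  mkty := by decide +kernel

theorem dead2 {s : Fin 5 → Fin 3} (hs : ∀ j, leP (s j) (![0, 0, 2, 4, 1] j) = true) : Dead s :=
  Dead.of Pt2.hP Pt2.hS Pt2.hD Pt2.hF pat2 ![0, 0, 2, 4, 1] (by decide) (by decide) hs

/-- types of the marks of the pattern `BFPPF` -/
def on3 (t : Fin 4) : ℕ := [5, 0, 7, 8].getD t.val 0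

theorem pat3 : Pat 4 Pt3.fr Pt3.mk [] on3 where
  frefl := by decide +kernel
  fsymm := by decide +kernel
  msymm := by decide +kernel
  all := by decide +kernel
  mkty := by decide +kernel

theorem dead3 {s : Fin 5 → Fin 3} (hs : ∀ j, leP (s j) (![3, 4, 2, 2, 4] j) = true) : Dead s :=
  Dead.of Pt3.hP Pt3.hS Pt3.hD Pt3.hF pat3 ![3, 4, 2, 2, 4] (by decide) (by decide) hs

/-- types of the marks of the pattern `BCCFC` -/
def on4 (t : Fin 2) : ℕ := [5, 0].getD t.val 0

theorem pat4 : Pat 2 Pt4.fr Pt4.mk [1, 2, 4] on4 where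
  frefl := by decide +kernel
  fsymm := by decide +kernel
  msymm := by decide +kernel
  all := by decide +kernel
  mkty := by decide +kernel

theorem dead4 {s : Fin 5 → Fin 3} (hs : ∀ j, leP (s j) (![3, 0, 0, 4, 0] j) = true) : Dead s :=
  Dead.of Pt4.hP Pt4.hS Pt4.hD Pt4.hF pat4 ![3, 0, 0, 4, 0] (by decide) (by decide) hs

/-- types of the marks of the pattern `FPTFT` -/
def on5 (t : Fin 1) : ℕ := [6].getD t.val 0

theorem pat5 : Pat 1 Pt5.fr Pt5.mk [7, 9] on5 where
  frefl := by decide +kernel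
  fsymm := by decide +kernel
  msymm := by decide +kernel
  all := by decide +kernel
  mkty := by decide +kernel

theorem dead5 {s : Fin 5 → Fin 3} (hs : ∀ j, leP (s j) (![4, 2, 1, 4, 1] j) = true) : Dead s :=
  Dead.of Pt5.hP Pt5.hS Pt5.hD Pt5.hF pat5 ![4, 2, 1, 4, 1] (by decide) (by decide) hs

/-- types of the marks of the pattern `BFFTF` -/
def on6 (t : Fin 2) : ℕ := [5, 0].getD t.val 0

theorem pat6 : Pat 2 Pt6.fr Pt6.mk [8] on6 where
  frefl := by decide +kernel
  fsymm := by decide +kernel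
  msymm := by decide +kernel
  all := by decide +kernel
  mkty := by decide +kernel

theorem dead6 {s : Fin 5 → Fin 3} (hs : ∀ j, leP (s j) (![3, 4, 4, 1, 4] j) = true) : Dead s :=
  Dead.of Pt6.hP Pt6.hS Pt6.hD Pt6.hF pat6 ![3, 4, 4, 1, 4] (by decide) (by decide) hs

/-- one of the seven patterns -/
def covP (s : Fin 5 → Fin 3) : Bool :=
  (List.finRange 5).all (fun j => leP (s j) (![0, 0, 0, 0, 0] j)) ||
  (List.finRange 5).all (fun j => leP (s j) (![0, 0, 4, 2, 4] j)) ||
  (List.finRange 5).all (fun j => leP (s j) (![0, 0, 2, 4, 1] j)) ||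
  (List.finRange 5).all (fun j => leP (s j) (![3, 4, 2, 2, 4] j)) ||
  (List.finRange 5).all (fun j => leP (s j) (![3, 0, 0, 4, 0] j)) ||
  (List.finRange 5).all (fun j => leP (s j) (![4, 2, 1, 4, 1] j)) ||
  (List.finRange 5).all (fun j => leP (s j) (![3, 4, 4, 1, 4] j))

theorem dead_of_cov {s : Fin 5 → Fin 3} (h : covP s = true) : Dead s := by
  unfold covP at h
  simp only [Bool.or_eq_true, List.all_eq_true, List.mem_finRange, forall_true_left] at h
  rcases h with (((((h | h) | h) | h) | h) | h) | h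
  · exact dead0 h
  · exact dead1 h
  · exact dead2 h
  · exact dead3 h
  · exact dead4 h
  · exact dead5 h
  · exact dead6 h

/-- a rotation or reflection of the status is covered -/
def covR (s : Fin 5 → Fin 3) : Bool :=
  covP s || covP (fun j => s (j + 1)) || covP (fun j => s (j + 1 + 1)) ||
    covP (fun j => s (j + 1 + 1 + 1)) || covP (fun j => s (j + 1 + 1 + 1 + 1))

theorem dead_of_covR {s : Fin 5 → Fin 3} (h : covR s = true) : Dead s := by
  unfold covR at h
  simp only [Bool.or_eq_true] at h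
  rcases h with (((h | h) | h) | h) | h
  · exact dead_of_cov h
  · exact Dead.ro (dead_of_cov h)
  · exact Dead.ro (Dead.ro (dead_of_cov h))
  · exact Dead.ro (Dead.ro (Dead.ro (dead_of_cov h)))
  · exact Dead.ro (Dead.ro (Dead.ro (Dead.ro (dead_of_cov h))))

theorem cov_all : ∀ a b c d e : Fin 3,
    (covR ![a, b, c, d, e] || covR fun j => ![a, b, c, d, e] (-j)) = true := by
  decide +kernel

theorem dead_all (s : Fin 5 → Fin 3) : Dead s := by
  have e : s = ![s 0, s 1, s 2, s 3, s 4] := by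
    funext j
    fin_cases j <;> rfl
  have h := cov_all (s 0) (s 1) (s 2) (s 3) (s 4)
  rw [← e, Bool.or_eq_true] at h
  rcases h with h | h
  · exact dead_of_covR h
  · exact Dead.re (dead_of_covR h)

/-- **No pentagram word.** -/
theorem Pent.elim {X : Fin 6 → Set ℝ} (P : Pent X)
    (H : ∀ j : Fin 5, (∀ u, ¬ (u ∈ X j.castSucc ∧ u ∈ X 5)) ∨
      (∀ u, ¬ (u ∈ X (j + 2).castSucc ∧ u ∈ X (j + 3).castSucc)) ∨
      ((∀ u v, (u ∈ X j.castSucc ∧ u ∈ X 5) → (v ∈ X j.castSucc ∧ v ∈ X 5) →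
        ∃ n : ℤ, v = u + 6 * n) ∧
       ∀ u v, (u ∈ X (j + 2).castSucc ∧ u ∈ X (j + 3).castSucc) →
        (v ∈ X (j + 2).castSucc ∧ v ∈ X (j + 3).castSucc) → ∃ n : ℤ, v = u + 6 * n)) : False := by
  have ht : ∀ (j : Fin 5) (a b : Fin 6), typN j.val a.val b.val = true →
      (a = j.castSucc ∧ b = 5) ∨ (a = 5 ∧ b = j.castSucc) := by decide
  have hc : ∀ (j : Fin 5) (a b : Fin 6), typN (5 + j.val) a.val b.val = true →
      (a = (j + 2).castSucc ∧ b = (j + 3).castSucc) ∨
        (a = (j + 3).castSucc ∧ b = (j + 2).castSucc) := by decide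
  have hT : ∀ (j : Fin 5) u, u ∈ Pts X j.val → u ∈ X j.castSucc ∧ u ∈ X 5 := by
    rintro j u ⟨a, b, h1, h2, h3⟩
    rcases ht j a b h1 with ⟨rfl, rfl⟩ | ⟨rfl, rfl⟩
    · exact ⟨h2, h3⟩
    · exact ⟨h3, h2⟩
  have hC : ∀ (j : Fin 5) u, u ∈ Pts X (5 + j.val) →
      u ∈ X (j + 2).castSucc ∧ u ∈ X (j + 3).castSucc := by
    rintro j u ⟨a, b, h1, h2, h3⟩
    rcases hc j a b h1 with ⟨rfl, rfl⟩ | ⟨rfl, rfl⟩
    · exact ⟨h2, h3⟩
    · exact ⟨h3, h2⟩
  have key : ∀ j : Fin 5, ∃ s : Fin 3, Ok X j s := by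
    intro j
    rcases H j with h | h | ⟨h, h'⟩
    · refine ⟨0, Or.inl ⟨rfl, ?_⟩⟩
      rw [eq_empty_iff_forall_notMem]
      exact fun u hu => h u (hT j u hu)
    · refine ⟨1, Or.inr (Or.inl ⟨rfl, ?_⟩)⟩
      rw [eq_empty_iff_forall_notMem]
      exact fun u hu => h u (hC j u hu)
    · exact ⟨2, Or.inr (Or.inr ⟨rfl, fun u v hu hv => h u v (hT j u hu) (hT j v hv),
        fun u v hu hv => h' u v (hC j u hu) (hC j v hv)⟩)⟩
  choose s hs using key
  exact dead_all s X P hs

end Vale.Agent.P032.W5
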