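import Vale.Agent.P032.Words5.Pent

/-!
# The dihedral symmetry of the pentagram words, and the list of patterns
-/

namespace Vale.Agent.P032.W5

open Vale.Agent.P032.Words

open Set Filter Topology

/-- rotation of the letters -/
def lro (a : Fin 6) : Fin 6 := ![1, 2, 3, 4, 0, 5] a

/-- reflection of the letters -/
def lre (a : Fin 6) : Fin 6 := ![0, 4, 3, 2, 1, 5] a

/-- inverse rotation -/
def lro' (a : Fin 6) : Fin 6 := ![4, 0, 1, 2, 3, 5] a

theorem lro_lro' : ∀ a, lro (lro' a) = a := by decide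
theorem lro'_lro : ∀ a, lro' (lro a) = a := by decide
theorem lre_lre : ∀ a, lre (lre a) = a := by decide

theorem FZ_ro : ∀ (i : Fin 4) (x : Fin 5) (k : Fin 6),
    lro (FZ i x k).1 = (FZ i (x + 1) k).1 ∧ lro (FZ i x k).2 = (FZ i (x + 1) k).2 := by
  decide

theorem FZ_re : ∀ (i : Fin 4) (x : Fin 5), ∃ (i' : Fin 4) (x' : Fin 5) (r : Fin 6), ∀ k : Fin 6,
    (lre (FZ i x (k + r)).1 = (FZ i' x' k).1 ∧ lre (FZ i x (k + r)).2 = (FZ i' x' k).2) ∨
      (lre (FZ i x (k + r)).1 = (FZ i' x' k).2 ∧ lre (FZ i x (k + r)).2 = (FZ i' x' k).1) := by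
  intro i
  fin_cases i
  · intro x
    refine ⟨0, 3 - x, 1, ?_⟩
    revert x
    decide
  · intro x
    refine ⟨2, -x, 0, ?_⟩
    revert x
    decide
  · intro x
    refine ⟨1, -x, 0, ?_⟩
    revert x
    decide
  · intro x
    refine ⟨3, 3 - x, 3, ?_⟩
    revert x
    decide

/-- change of letters -/
theorem Pent.change {X : Fin 6 → Set ℝ} (P : Pent X) (f g : Fin 6 → Fin 6) (hfg : ∀ a, f (g a) = a)
    (hgf : ∀ a, g (f a) = a)
    (h1 : ∀ a b, prL (f a).val (f b).val = true → prL a.val b.val = true)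
    (h2 : ∀ a b, adjN (f a).val (f b).val = adjN a.val b.val)
    (h3 : ∀ a b, antN (f a).val (f b).val = antN a.val b.val)
    (hn : ∀ u (x : Fin 5) (i : Fin 4),
      ¬ ∀ k : Fin 6, u + (k.val : ℝ) ∈ X (f (FZ i x k).1) ∧ u + (k.val : ℝ) ∈ X (f (FZ i x k).2)) :
    Pent fun l => X (f l) where
  closed l := P.closed _
  cover u := by
    obtain ⟨l, hl⟩ := P.cover u
    exact ⟨g l, by show u ∈ X (f (g l)); rw [hfg]; exact hl⟩
  per l u := P.per _ u
  gen := by
    refine P.gen.mono ?_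
    rintro u ⟨l, hl⟩
    refine ⟨g l, fun m hm => ?_⟩
    have := hl (f m) hm
    rw [← this, hgf]
  two u a b c ha hb hc hab := by
    have hab' : f a ≠ f b := fun h => hab (by rw [← hgf a, h, hgf])
    rcases P.two u (f a) (f b) (f c) ha hb hc hab' with h | h
    · left; rw [← hgf c, h, hgf]
    · right; rw [← hgf c, h, hgf]
  pair u a b ha hb := h1 a b (P.pair u _ _ ha hb)
  sixty u a b ha hb := by
    rw [← h2]
    refine P.sixty u _ _ (fun m hm => ?_) fun m hm => ?_
    · have : u ∈ X (f (g m)) := by rw [hfg]; exact hm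
      rw [← ha (g m) this, hfg]
    · have : u + 1 ∈ X (f (g m)) := by rw [hfg]; exact hm
      rw [← hb (g m) this, hfg]
  anti u a b ha hb := by
    rw [← h3]
    refine P.anti u _ _ (fun m hm => ?_) fun m hm => ?_
    · have : u ∈ X (f (g m)) := by rw [hfg]; exact hm
      rw [← ha (g m) this, hfg]
    · have : u + 3 ∈ X (f (g m)) := by rw [hfg]; exact hm
      rw [← hb (g m) this, hfg]
  swap1 u a a' b b' ha ha' hb hb' h h' := by
    have := P.swap1 u _ _ _ _ ha ha' hb hb' (by rw [h2]; exact h) (by rw [h2]; exact h')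
    unfold sw1 at this ⊢
    rw [h2, h2] at this
    exact this
  swap3 u a a' b b' ha ha' hb hb' h h' := by
    have := P.swap3 u _ _ _ _ ha ha' hb hb' (by rw [h3]; exact h) (by rw [h3]; exact h')
    unfold sw3 at this ⊢
    rw [h3, h3] at this
    exact this
  nofr := hn

theorem Pent.ro {X : Fin 6 → Set ℝ} (P : Pent X) : Pent fun l => X (lro l) := by
  refine P.change _ lro' lro_lro' lro'_lro (by decide) (by decide) (by decide) ?_
  intro u x i hk
  refine P.nofr u (x + 1) i fun k => ?_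
  rw [← (FZ_ro i x k).1, ← (FZ_ro i x k).2]
  exact hk k

theorem Pent.re {X : Fin 6 → Set ℝ} (P : Pent X) : Pent fun l => X (lre l) := by
  refine P.change _ lre lre_lre lre_lre (by decide) (by decide) (by decide) ?_
  intro u x i hk
  obtain ⟨i', x', r, hr⟩ := FZ_re i x
  refine P.nofr (u + (r.val : ℝ)) x' i' fun k => ?_
  rw [P.addr, P.addr]
  have h := hk (k + r)
  rcases hr k with h1 | h1
  · rw [← h1.1, ← h1.2]; exact h
  · rw [← h1.1, ← h1.2]; exact h.symm

/-- the status of the types `t_j, c_j`: `0`: no `t_j`, `1`: no `c_j`, `2`: both at most once -/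
def Ok (X : Fin 6 → Set ℝ) (j : Fin 5) (s : Fin 3) : Prop :=
  (s = 0 ∧ Pts X j.val = ∅) ∨ (s = 1 ∧ Pts X (5 + j.val) = ∅) ∨
    (s = 2 ∧ (∀ u v, u ∈ Pts X j.val → v ∈ Pts X j.val → ∃ n : ℤ, v = u + 6 * n) ∧
      ∀ u v, u ∈ Pts X (5 + j.val) → v ∈ Pts X (5 + j.val) → ∃ n : ℤ, v = u + 6 * n)

/-- the status `s` is impossible -/
def Dead (s : Fin 5 → Fin 3) : Prop := ∀ X : Fin 6 → Set ℝ, Pent X → (∀ j, Ok X j (s j)) → False

theorem Pts_ro (X : Fin 6 → Set ℝ) (j : Fin 5) :
    Pts (fun l => X (lro l)) j.val = Pts X (j + 1).val := by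
  have h : ∀ (j : Fin 5) (a b : Fin 6), typN j.val a.val b.val = typN (j + 1).val (lro a).val (lro b).val := by
    decide
  ext u
  constructor
  · rintro ⟨a, b, h1, h2, h3⟩
    exact ⟨_, _, by rw [← h]; exact h1, h2, h3⟩
  · rintro ⟨a, b, h1, h2, h3⟩
    refine ⟨lro' a, lro' b, ?_, ?_, ?_⟩
    · rw [h, lro_lro', lro_lro']; exact h1
    · show u ∈ X (lro (lro' a)); rw [lro_lro']; exact h2
    · show u ∈ X (lro (lro' b)); rw [lro_lro']; exact h3

theorem Pts_ro5 (X : Fin 6 → Set ℝ) (j : Fin 5) :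
    Pts (fun l => X (lro l)) (5 + j.val) = Pts X (5 + (j + 1).val) := by
  have h : ∀ (j : Fin 5) (a b : Fin 6), typN (5 + j.val) a.val b.val =
      typN (5 + (j + 1).val) (lro a).val (lro b).val := by
    decide
  ext u
  constructor
  · rintro ⟨a, b, h1, h2, h3⟩
    exact ⟨_, _, by rw [← h]; exact h1, h2, h3⟩
  · rintro ⟨a, b, h1, h2, h3⟩
    refine ⟨lro' a, lro' b, ?_, ?_, ?_⟩
    · rw [h, lro_lro', lro_lro']; exact h1
    · show u ∈ X (lro (lro' a)); rw [lro_lro']; exact h2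
    · show u ∈ X (lro (lro' b)); rw [lro_lro']; exact h3

theorem Pts_re (X : Fin 6 → Set ℝ) (j : Fin 5) :
    Pts (fun l => X (lre l)) j.val = Pts X (-j).val := by
  have h : ∀ (j : Fin 5) (a b : Fin 6), typN j.val a.val b.val = typN (-j).val (lre a).val (lre b).val := by
    decide
  ext u
  constructor
  · rintro ⟨a, b, h1, h2, h3⟩
    exact ⟨_, _, by rw [← h]; exact h1, h2, h3⟩
  · rintro ⟨a, b, h1, h2, h3⟩
    refine ⟨lre a, lre b, ?_, ?_, ?_⟩
    · rw [h, lre_lre, lre_lre]; exact h1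
    · show u ∈ X (lre (lre a)); rw [lre_lre]; exact h2
    · show u ∈ X (lre (lre b)); rw [lre_lre]; exact h3

theorem Pts_re5 (X : Fin 6 → Set ℝ) (j : Fin 5) :
    Pts (fun l => X (lre l)) (5 + j.val) = Pts X (5 + (-j).val) := by
  have h : ∀ (j : Fin 5) (a b : Fin 6), typN (5 + j.val) a.val b.val =
      typN (5 + (-j).val) (lre a).val (lre b).val := by
    decide
  ext u
  constructor
  · rintro ⟨a, b, h1, h2, h3⟩
    exact ⟨_, _, by rw [← h]; exact h1, h2, h3⟩
  · rintro ⟨a, b, h1, h2, h3⟩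
    refine ⟨lre a, lre b, ?_, ?_, ?_⟩
    · rw [h, lre_lre, lre_lre]; exact h1
    · show u ∈ X (lre (lre a)); rw [lre_lre]; exact h2
    · show u ∈ X (lre (lre b)); rw [lre_lre]; exact h3

theorem Dead.ro {s : Fin 5 → Fin 3} (h : Dead fun j => s (j + 1)) : Dead s := by
  intro X P H
  refine h _ P.ro fun j => ?_
  have := H (j + 1)
  unfold Ok at this ⊢
  rw [Pts_ro, Pts_ro5]
  exact this

theorem Dead.re {s : Fin 5 → Fin 3} (h : Dead fun j => s (-j)) : Dead s := by
  intro X P H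
  refine h _ P.re fun j => ?_
  have := H (-j)
  unfold Ok at this ⊢
  rw [Pts_re, Pts_re5]
  exact this

/-- comparison of a status with a pattern (`0`: `C`, `1`: `T`, `2`: `P`, `3`: `B`, `4`: `F`) -/
def leP (s : Fin 3) (p : Fin 5) : Bool :=
  p == 4 || (s == 0 && p == 0) || (s == 1 && (p == 1 || p == 2)) || (s == 2 && (p == 2 || p == 3))

theorem Dead.of {N m T R : ℕ} {fr : ℕ → ℕ → Bool} {mk : ℕ → ℕ → ℕ → Bool} {abs : List ℕ}
    {on : Fin m → ℕ} (hP : chkP N m T R fr mk = true) (hS : chkS N m T R fr mk = true)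
    (hD : chkD N R = true) (hF : chkF N m T R = true)
    (D : Pat m fr mk abs on) (p : Fin 5 → Fin 5)
    (hA : ∀ q ∈ abs, (∃ j : Fin 5, q = j.val ∧ p j = 0) ∨ ∃ j : Fin 5, q = 5 + j.val ∧ p j = 1)
    (hO : ∀ t : Fin m, (∃ j : Fin 5, on t = j.val ∧ p j = 3) ∨
      ∃ j : Fin 5, on t = 5 + j.val ∧ (p j = 2 ∨ p j = 3))
    {s : Fin 5 → Fin 3} (hs : ∀ j, leP (s j) (p j) = true) : Dead s := by
  intro X P H
  have l0 : ∀ s : Fin 3, leP s 0 = true → s = 0 := by decide
  have l1 : ∀ s : Fin 3, leP s 1 = true → s = 1 := by decide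
  have l2 : ∀ s : Fin 3, leP s 2 = true → s = 1 ∨ s = 2 := by decide
  have l3 : ∀ s : Fin 3, leP s 3 = true → s = 2 := by decide
  have o0 : ∀ j, s j = 0 → Pts X j.val = ∅ := by
    intro j hj
    rcases H j with h | h | h
    · exact h.2
    · rw [hj] at h; exact absurd h.1 (by decide)
    · rw [hj] at h; exact absurd h.1 (by decide)
  have o1 : ∀ j, s j = 1 → Pts X (5 + j.val) = ∅ := by
    intro j hj
    rcases H j with h | h | h
    · rw [hj] at h; exact absurd h.1 (by decide)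
    · exact h.2
    · rw [hj] at h; exact absurd h.1 (by decide)
  have o2 : ∀ j, s j = 2 →
      (∀ u v, u ∈ Pts X j.val → v ∈ Pts X j.val → ∃ n : ℤ, v = u + 6 * n) ∧
      ∀ u v, u ∈ Pts X (5 + j.val) → v ∈ Pts X (5 + j.val) → ∃ n : ℤ, v = u + 6 * n := by
    intro j hj
    rcases H j with h | h | h
    · rw [hj] at h; exact absurd h.1 (by decide)
    · rw [hj] at h; exact absurd h.1 (by decide)
    · exact h.2
  refine P.false_of hP hS hD hF D ?_ ?_
  · intro q hq
    rcases hA q hq with ⟨j, rfl, hj⟩ | ⟨j, rfl, hj⟩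
    · have := hs j
      rw [hj] at this
      exact o0 j (l0 _ this)
    · have := hs j
      rw [hj] at this
      exact o1 j (l1 _ this)
  · intro t u v hu hv
    rcases hO t with ⟨j, hq, hj⟩ | ⟨j, hq, hj⟩
    · rw [hq] at hu hv
      have := hs j
      rw [hj] at this
      exact (o2 j (l3 _ this)).1 u v hu hv
    · rw [hq] at hu hv
      have := hs j
      rcases hj with hj | hj
      · rw [hj] at this
        rcases l2 _ this with h | h
        · rw [o1 j h] at hu
          exact absurd hu (notMem_empty u)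
        · exact (o2 j h).2 u v hu hv
      · rw [hj] at this
        exact (o2 j (l3 _ this)).2 u v hu hv

end Vale.Agent.P032.W5
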